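import Vale.Agent.P267.H82.Nerve

/-!
P267, package LATTICE-LIFT, steps T1 (final form) and T2: a periodic integral cocycle which is really
trivial on one window is, up to a periodic real coboundary, the sum of the translates of an integral
cocycle supported in one period.
-/

set_option autoImplicit false

namespace Vale.Agent.P267.H82

variable {ι : Type*}

lemma per2 {G : Type*} {M : ℤ} {f : ι × ℤ → ι × ℤ → G}
    (h : ∀ a b, f (sh M a) (sh M b) = f a b) (k : ℤ) (a b : ι × ℤ) :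
    f (sh (k * M) a) (sh (k * M) b) = f a b := by
  induction k using Int.induction_on with
  | zero => simp
  | succ k ih =>
    rw [← ih, ← h (sh (k * M) a), sh_sh, sh_sh]
    congr 2 <;> ring
  | pred k ih =>
    rw [← ih, ← h (sh ((-(k : ℤ) - 1) * M) a), sh_sh, sh_sh]
    congr 2 <;> ring

lemma per3 {G : Type*} {M : ℤ} {f : ι × ℤ → ι × ℤ → ι × ℤ → G}
    (h : ∀ a b c, f (sh M a) (sh M b) (sh M c) = f a b c) (k : ℤ) (a b c : ι × ℤ) :
    f (sh (k * M) a) (sh (k * M) b) (sh (k * M) c) = f a b c := by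
  induction k using Int.induction_on with
  | zero => simp
  | succ k ih =>
    rw [← ih, ← h (sh (k * M) a), sh_sh, sh_sh, sh_sh]
    congr 2 <;> ring_nf
  | pred k ih =>
    rw [← ih, ← h (sh ((-(k : ℤ) - 1) * M) a), sh_sh, sh_sh, sh_sh]
    congr 2 <;> ring_nf

namespace PNerve

variable (K : PNerve ι)

/-- Step T1, final form, window centred at level zero. -/
theorem exists_trivial [Finite ι] (l₀ : ℕ) :
    ∃ l p : ℕ, 0 < p ∧ ∀ M : ℕ, p ∣ M → 2 * l₀ < M → ∀ z : ι × ℤ → ι × ℤ → ι × ℤ → ℤ,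
      (∀ a b c, z (sh M a) (sh M b) (sh M c) = z a b c) →
      (∃ α : ι × ℤ → ι × ℤ → ℝ, ∀ a b c, K.T a b c → a ∈ win ι l → b ∈ win ι l → c ∈ win ι l →
        (z a b c : ℝ) = α b c - α a c + α a b) →
      ∃ (β : ι × ℤ → ι × ℤ → ℝ) (z' : ι × ℤ → ι × ℤ → ι × ℤ → ℤ),
        (∀ a b, β (sh M a) (sh M b) = β a b) ∧
        (∀ a b c, z' (sh M a) (sh M b) (sh M c) = z' a b c) ∧
        (∀ a b c, K.T a b c → (z' a b c : ℝ) = z a b c + (β b c - β a c + β a b)) ∧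
        ∀ a b c, K.T a b c → a ∈ win ι l₀ → b ∈ win ι l₀ → c ∈ win ι l₀ → z' a b c = 0 := by
  classical
  obtain ⟨l, p, hp, H⟩ := K.exists_char l₀
  refine ⟨max l l₀, p, hp, fun M hM hM0 z hz hα => ?_⟩
  obtain ⟨α, hα⟩ := hα
  have hl : win ι l ⊆ win ι (max l l₀) := win_mono (le_max_left _ _)
  have hl₀ : win ι l₀ ⊆ win ι (max l l₀) := win_mono (le_max_right _ _)
  obtain ⟨β₀, hβper, hβint, r, q, hr, hq⟩ := H M hM α fun a b c hT ha hb hc =>
    ⟨z a b c, (hα a b c hT (hl ha) (hl hb) (hl hc)).symm⟩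
  have hMpos : (0 : ℤ) < M := by omega
  -- periodic extension of `q`
  let kk : ι × ℤ → ℤ := fun a => (a.2 + l₀) / M
  let n : ι × ℤ → ι × ℤ → ℤ := fun a b =>
    if |a.2 - kk a * M| ≤ l₀ ∧ |b.2 - kk a * M| ≤ l₀ then
      q (sh (-(kk a * M)) a) (sh (-(kk a * M)) b) else 0
  have hkk : ∀ a, kk (sh M a) = kk a + 1 := by
    intro a
    simp only [kk, sh_snd]
    rw [show a.2 + (M : ℤ) + l₀ = (a.2 + l₀) + M from by ring, Int.add_ediv_of_dvd_right dvd_rfl,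
      Int.ediv_self hMpos.ne']
  have hnper : ∀ a b, n (sh M a) (sh M b) = n a b := by
    intro a b
    simp only [n, hkk, sh_snd, sh_sh]
    rw [show a.2 + (M : ℤ) - (kk a + 1) * M = a.2 - kk a * M from by ring,
      show b.2 + (M : ℤ) - (kk a + 1) * M = b.2 - kk a * M from by ring,
      show -((kk a + 1) * (M : ℤ)) + M = -(kk a * M) from by ring]
  have hnwin : ∀ a b : ι × ℤ, a ∈ win ι l₀ → b ∈ win ι l₀ → n a b = q a b := by
    intro a b ha hb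
    have ha' : |a.2| ≤ (l₀ : ℤ) := ha
    have hb' : |b.2| ≤ (l₀ : ℤ) := hb
    have hk0 : kk a = 0 := by
      simp only [kk]
      rw [abs_le] at ha'
      exact Int.ediv_eq_zero_of_lt (by omega) (by omega)
    simp only [n, hk0, zero_mul, sub_zero, neg_zero, sh_zero]
    rw [if_pos ⟨ha', hb'⟩]
  let β : ι × ℤ → ι × ℤ → ℝ := fun a b => -(β₀ a b + n a b)
  have hβ : ∀ a b, β a b = -(β₀ a b + n a b) := fun a b => rfl
  have hβp : ∀ a b, β (sh M a) (sh M b) = β a b := by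
    intro a b
    rw [hβ, hβ, hβper, hnper]
  let z' : ι × ℤ → ι × ℤ → ι × ℤ → ℤ := fun a b c => ⌊(z a b c : ℝ) + (β b c - β a c + β a b)⌋
  have hz' : ∀ a b c, K.T a b c → (z' a b c : ℝ) = z a b c + (β b c - β a c + β a b) := by
    intro a b c hT
    obtain ⟨m, hm⟩ := hβint a b c hT
    have h1 : (z a b c : ℝ) + (β b c - β a c + β a b)
        = ((z a b c - m - (n b c - n a c + n a b) : ℤ) : ℝ) := by
      rw [hβ, hβ, hβ]
      push_cast
      linarith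
    simp only [z']
    rw [h1, Int.floor_intCast]
  refine ⟨β, z', hβp, fun a b c => ?_, hz', fun a b c hT ha hb hc => ?_⟩
  · simp only [z']
    rw [hz, hβp, hβp, hβp]
  · have h1 := hz' a b c hT
    obtain ⟨w1, w2, w3⟩ := K.width a b c hT
    have h2 := hr a b c hT ha hb hc
    have e1 := hq a b ha hb w1
    have e2 := hq b c hb hc w2
    have e3 := hq a c ha hc w3
    have h3 : (z a b c : ℝ) = α b c - α a c + α a b := hα a b c hT (hl₀ ha) (hl₀ hb) (hl₀ hc)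
    rw [hβ, hβ, hβ, hnwin a b ha hb, hnwin b c hb hc, hnwin a c ha hc] at h1
    have h4 : (z' a b c : ℝ) = 0 := by
      rw [h1, h3, e1, e2, e3]
      linarith
    exact_mod_cast h4

/-- **The lift** (steps T1 and T2), window centred at level zero. -/
theorem lift₀ [Finite ι] (F : ι × ℤ → ι × ℤ → ι × ℤ → ι × ℤ → Prop)
    (hF : ∀ a b c d, F a b c d → K.T b c d ∧ K.T a c d ∧ K.T a b d ∧ K.T a b c)
    (l₀ : ℕ) (hw : K.w ≤ l₀) :
    ∃ l p : ℕ, 0 < p ∧ ∀ M : ℕ, p ∣ M → 2 * l₀ < M → ∀ z : ι × ℤ → ι × ℤ → ι × ℤ → ℤ,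
      (∀ a b c, z (sh M a) (sh M b) (sh M c) = z a b c) →
      (∀ a b c d, F a b c d → z b c d - z a c d + z a b d - z a b c = 0) →
      (∃ α : ι × ℤ → ι × ℤ → ℝ, ∀ a b c, K.T a b c → a ∈ win ι l → b ∈ win ι l → c ∈ win ι l →
        (z a b c : ℝ) = α b c - α a c + α a b) →
      ∃ (β : ι × ℤ → ι × ℤ → ℝ) (e : ι × ℤ → ι × ℤ → ι × ℤ → ℤ),
        (∀ a b, β (sh M a) (sh M b) = β a b) ∧
        (∀ a b c d, F a b c d → e b c d - e a c d + e a b d - e a b c = 0) ∧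
        (∀ a b c, e a b c ≠ 0 → K.T a b c ∧
          ((l₀ : ℤ) - K.w < a.2 ∧ a.2 < M - l₀ + K.w) ∧
          ((l₀ : ℤ) - K.w < b.2 ∧ b.2 < M - l₀ + K.w) ∧
          ((l₀ : ℤ) - K.w < c.2 ∧ c.2 < M - l₀ + K.w)) ∧
        (∀ a b c, K.T a b c → ∃ k : ℤ,
          ((e (sh (k * M) a) (sh (k * M) b) (sh (k * M) c) : ℤ) : ℝ)
            = z a b c + (β b c - β a c + β a b) ∧
          ∀ k' : ℤ, k' ≠ k → e (sh (k' * M) a) (sh (k' * M) b) (sh (k' * M) c) = 0) := by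
  classical
  obtain ⟨l, p, hp, H⟩ := K.exists_trivial l₀
  refine ⟨l, p, hp, fun M hM hM0 z hz hzF hα => ?_⟩
  obtain ⟨β, z', hβ, hz'per, hz', hz'0⟩ := H M hM hM0 z hz hα
  have hMpos : (0 : ℤ) < M := by omega
  have hw' : (K.w : ℤ) ≤ l₀ := by exact_mod_cast hw
  have hM2 : 2 * (l₀ : ℤ) < M := by exact_mod_cast hM0
  have hz'F : ∀ a b c d, F a b c d → z' b c d - z' a c d + z' a b d - z' a b c = 0 := by
    intro a b c d h
    obtain ⟨t1, t2, t3, t4⟩ := hF a b c d h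
    have h1 : ((z' b c d - z' a c d + z' a b d - z' a b c : ℤ) : ℝ) = 0 := by
      have h0 : ((z b c d - z a c d + z a b d - z a b c : ℤ) : ℝ) = 0 := by
        rw [hzF a b c d h]; simp
      push_cast at h0 ⊢
      rw [hz' _ _ _ t1, hz' _ _ _ t2, hz' _ _ _ t3, hz' _ _ _ t4]
      linarith
    exact_mod_cast h1
  -- `z'` vanishes in all windows
  have hz'w : ∀ (k : ℤ) a b c, K.T a b c → |a.2 - k * M| ≤ l₀ → |b.2 - k * M| ≤ l₀ →
      |c.2 - k * M| ≤ l₀ → z' a b c = 0 := by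
    intro k a b c hT ha hb hc
    rw [← per3 hz'per (-k) a b c]
    refine hz'0 _ _ _ ((K.shift _ _ _ _).mpr hT) ?_ ?_ ?_
    · change |a.2 + -k * M| ≤ l₀
      rwa [show a.2 + -k * (M : ℤ) = a.2 - k * M from by ring]
    · change |b.2 + -k * M| ≤ l₀
      rwa [show b.2 + -k * (M : ℤ) = b.2 - k * M from by ring]
    · change |c.2 + -k * M| ≤ l₀
      rwa [show c.2 + -k * (M : ℤ) = c.2 - k * M from by ring]
  let e : ι × ℤ → ι × ℤ → ι × ℤ → ℤ := fun a b c =>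
    if K.T a b c ∧ 0 ≤ a.2 ∧ a.2 < M then z' a b c else 0
  have he : ∀ a b c, e a b c = if K.T a b c ∧ 0 ≤ a.2 ∧ a.2 < M then z' a b c else 0 :=
    fun a b c => rfl
  refine ⟨β, e, hβ, fun a b c d h => ?_, fun a b c h => ?_, fun a b c hT => ?_⟩
  · obtain ⟨t1, t2, t3, t4⟩ := hF a b c d h
    obtain ⟨w1, w2, w3⟩ := K.width _ _ _ t4
    obtain ⟨w4, w5, w6⟩ := K.width _ _ _ t3
    obtain ⟨w7, w8, w9⟩ := K.width _ _ _ t1
    rw [abs_le] at w1 w2 w3 w4 w5 w6 w7 w8 w9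
    by_cases ha : 0 ≤ a.2 ∧ a.2 < M
    · by_cases hb : 0 ≤ b.2 ∧ b.2 < M
      · rw [he, he, he, he, if_pos ⟨t1, hb⟩, if_pos ⟨t2, ha⟩, if_pos ⟨t3, ha⟩, if_pos ⟨t4, ha⟩]
        exact hz'F a b c d h
      · -- `b` is outside
        have key : ∃ k : ℤ, |a.2 - k * M| ≤ l₀ ∧ |b.2 - k * M| ≤ l₀ ∧ |c.2 - k * M| ≤ l₀ ∧
            |d.2 - k * M| ≤ l₀ := by
          by_cases hb0 : 0 ≤ b.2
          · refine ⟨1, ?_⟩
            have hb1 : (M : ℤ) ≤ b.2 := by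
              by_contra hne
              exact hb ⟨hb0, not_le.mp hne⟩
            rw [one_mul]
            refine ⟨abs_le.mpr ⟨?_, ?_⟩, abs_le.mpr ⟨?_, ?_⟩, abs_le.mpr ⟨?_, ?_⟩,
              abs_le.mpr ⟨?_, ?_⟩⟩ <;> omega
          · refine ⟨0, ?_⟩
            rw [zero_mul, sub_zero, sub_zero, sub_zero, sub_zero]
            refine ⟨abs_le.mpr ⟨?_, ?_⟩, abs_le.mpr ⟨?_, ?_⟩, abs_le.mpr ⟨?_, ?_⟩,
              abs_le.mpr ⟨?_, ?_⟩⟩ <;> omega
        obtain ⟨k, k1, k2, k3, k4⟩ := key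
        have z2 := hz'w k a c d t2 k1 k3 k4
        have z3 := hz'w k a b d t3 k1 k2 k4
        have z4 := hz'w k a b c t4 k1 k2 k3
        rw [he, he, he, he, if_neg (fun h => hb h.2), if_pos ⟨t2, ha⟩, if_pos ⟨t3, ha⟩,
          if_pos ⟨t4, ha⟩, z2, z3, z4]
        ring
    · by_cases hb : 0 ≤ b.2 ∧ b.2 < M
      · have key : ∃ k : ℤ, |a.2 - k * M| ≤ l₀ ∧ |b.2 - k * M| ≤ l₀ ∧ |c.2 - k * M| ≤ l₀ ∧
            |d.2 - k * M| ≤ l₀ := by
          by_cases ha0 : 0 ≤ a.2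
          · refine ⟨1, ?_⟩
            have hb1 : (M : ℤ) ≤ a.2 := by
              by_contra hne
              exact ha ⟨ha0, not_le.mp hne⟩
            rw [one_mul]
            refine ⟨abs_le.mpr ⟨?_, ?_⟩, abs_le.mpr ⟨?_, ?_⟩, abs_le.mpr ⟨?_, ?_⟩,
              abs_le.mpr ⟨?_, ?_⟩⟩ <;> omega
          · refine ⟨0, ?_⟩
            rw [zero_mul, sub_zero, sub_zero, sub_zero, sub_zero]
            refine ⟨abs_le.mpr ⟨?_, ?_⟩, abs_le.mpr ⟨?_, ?_⟩, abs_le.mpr ⟨?_, ?_⟩,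
              abs_le.mpr ⟨?_, ?_⟩⟩ <;> omega
        obtain ⟨k, k1, k2, k3, k4⟩ := key
        have z1 := hz'w k b c d t1 k2 k3 k4
        rw [he, he, he, he, if_pos ⟨t1, hb⟩, if_neg (fun h => ha h.2), if_neg (fun h => ha h.2),
          if_neg (fun h => ha h.2), z1]
        ring
      · rw [he, he, he, he, if_neg (fun h => hb h.2), if_neg (fun h => ha h.2),
          if_neg (fun h => ha h.2), if_neg (fun h => ha h.2)]
        ring
  · rw [he] at h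
    by_cases hc : K.T a b c ∧ 0 ≤ a.2 ∧ a.2 < M
    · rw [if_pos hc] at h
      obtain ⟨hT, ha0, ha1⟩ := hc
      obtain ⟨w1, w2, w3⟩ := K.width _ _ _ hT
      rw [abs_le] at w1 w2 w3
      have n0 : ¬ (|a.2 - 0 * M| ≤ l₀ ∧ |b.2 - 0 * M| ≤ l₀ ∧ |c.2 - 0 * M| ≤ l₀) :=
        fun hh => h (hz'w 0 a b c hT hh.1 hh.2.1 hh.2.2)
      have n1 : ¬ (|a.2 - 1 * M| ≤ l₀ ∧ |b.2 - 1 * M| ≤ l₀ ∧ |c.2 - 1 * M| ≤ l₀) :=
        fun hh => h (hz'w 1 a b c hT hh.1 hh.2.1 hh.2.2)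
      rw [abs_le, abs_le, abs_le] at n0 n1
      refine ⟨hT, ⟨?_, ?_⟩, ⟨?_, ?_⟩, ⟨?_, ?_⟩⟩ <;> omega
    · rw [if_neg hc] at h
      exact absurd rfl h
  · refine ⟨-(a.2 / M), ?_, ?_⟩
    · have h1 : 0 ≤ a.2 + -(a.2 / M) * M ∧ a.2 + -(a.2 / M) * M < M := by
        have h2 := Int.emod_nonneg a.2 hMpos.ne'
        have h3 := Int.emod_lt_of_pos a.2 hMpos
        have h4 : a.2 + -(a.2 / M) * M = a.2 % M := by
          have := Int.emod_add_mul_ediv a.2 M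
          linarith [mul_comm (a.2 / M) (M : ℤ)]
        rw [h4]
        exact ⟨h2, h3⟩
      rw [he, if_pos ⟨(K.shift _ _ _ _).mpr hT, h1⟩, per3 hz'per]
      exact hz' a b c hT
    · intro k' hk'
      rw [he, if_neg]
      rintro ⟨-, h1, h2⟩
      apply hk'
      rw [sh_snd] at h1 h2
      have h3 : -k' = a.2 / M := by
        symm
        rw [Int.ediv_eq_iff_of_pos hMpos]
        constructor <;> linarith
      omega

/-- **The lift** (steps T1 and T2), window centred at level `j`. -/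
theorem lift [Finite ι] (F : ι × ℤ → ι × ℤ → ι × ℤ → ι × ℤ → Prop)
    (hF : ∀ a b c d, F a b c d → K.T b c d ∧ K.T a c d ∧ K.T a b d ∧ K.T a b c)
    (hFs : ∀ (k : ℤ) a b c d, F (sh k a) (sh k b) (sh k c) (sh k d) ↔ F a b c d)
    (l₀ : ℕ) (hw : K.w ≤ l₀) :
    ∃ l p : ℕ, 0 < p ∧ ∀ M : ℕ, p ∣ M → 2 * l₀ < M → ∀ z : ι × ℤ → ι × ℤ → ι × ℤ → ℤ,
      (∀ a b c, z (sh M a) (sh M b) (sh M c) = z a b c) →
      (∀ a b c d, F a b c d → z b c d - z a c d + z a b d - z a b c = 0) →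
      ∀ j : ℤ,
      (∃ α : ι × ℤ → ι × ℤ → ℝ, ∀ a b c, K.T a b c → |a.2 - j| ≤ l → |b.2 - j| ≤ l →
        |c.2 - j| ≤ l → (z a b c : ℝ) = α b c - α a c + α a b) →
      ∃ (β : ι × ℤ → ι × ℤ → ℝ) (e : ι × ℤ → ι × ℤ → ι × ℤ → ℤ),
        (∀ a b, β (sh M a) (sh M b) = β a b) ∧
        (∀ a b c d, F a b c d → e b c d - e a c d + e a b d - e a b c = 0) ∧
        (∀ a b c, e a b c ≠ 0 → K.T a b c ∧
          (j + l₀ - K.w < a.2 ∧ a.2 < j + M - l₀ + K.w) ∧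
          (j + l₀ - K.w < b.2 ∧ b.2 < j + M - l₀ + K.w) ∧
          (j + l₀ - K.w < c.2 ∧ c.2 < j + M - l₀ + K.w)) ∧
        (∀ a b c, K.T a b c → ∃ k : ℤ,
          ((e (sh (k * M) a) (sh (k * M) b) (sh (k * M) c) : ℤ) : ℝ)
            = z a b c + (β b c - β a c + β a b) ∧
          ∀ k' : ℤ, k' ≠ k → e (sh (k' * M) a) (sh (k' * M) b) (sh (k' * M) c) = 0) := by
  obtain ⟨l, p, hp, H⟩ := K.lift₀ F hF l₀ hw
  refine ⟨l, p, hp, fun M hM hM0 z hz hzF j hα => ?_⟩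
  obtain ⟨α, hα⟩ := hα
  have hcomm : ∀ (k l : ℤ) (a : ι × ℤ), sh k (sh l a) = sh l (sh k a) := by
    intro k l a
    rw [sh_sh, sh_sh, add_comm]
  obtain ⟨β, e, h1, h2, h3, h4⟩ := H M hM hM0 (fun a b c => z (sh j a) (sh j b) (sh j c))
    (fun a b c => by
      rw [hcomm j M a, hcomm j M b, hcomm j M c]
      exact hz _ _ _)
    (fun a b c d h => hzF _ _ _ _ ((hFs j a b c d).mpr h))
    ⟨fun a b => α (sh j a) (sh j b), fun a b c hT ha hb hc => by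
      have ha' : |a.2| ≤ (l : ℤ) := ha
      have hb' : |b.2| ≤ (l : ℤ) := hb
      have hc' : |c.2| ≤ (l : ℤ) := hc
      refine hα _ _ _ ((K.shift j a b c).mpr hT) ?_ ?_ ?_
      · rwa [sh_snd, add_sub_cancel_right]
      · rwa [sh_snd, add_sub_cancel_right]
      · rwa [sh_snd, add_sub_cancel_right]⟩
  have hjj : ∀ a : ι × ℤ, sh j (sh (-j) a) = a := by
    intro a
    rw [sh_sh]
    simp
  refine ⟨fun a b => β (sh (-j) a) (sh (-j) b),
    fun a b c => e (sh (-j) a) (sh (-j) b) (sh (-j) c), fun a b => ?_, fun a b c d h => ?_,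
    fun a b c h => ?_, fun a b c hT => ?_⟩
  · simp only
    rw [hcomm (-j) M a, hcomm (-j) M b]
    exact h1 _ _
  · exact h2 _ _ _ _ ((hFs (-j) a b c d).mpr h)
  · obtain ⟨hT, ⟨a1, a2⟩, ⟨b1, b2⟩, ⟨c1, c2⟩⟩ := h3 _ _ _ h
    rw [sh_snd] at a1 a2 b1 b2 c1 c2
    refine ⟨(K.shift (-j) a b c).mp hT, ⟨?_, ?_⟩, ⟨?_, ?_⟩, ⟨?_, ?_⟩⟩ <;> omega
  · obtain ⟨k, hk1, hk2⟩ := h4 (sh (-j) a) (sh (-j) b) (sh (-j) c) ((K.shift (-j) a b c).mpr hT)
    refine ⟨k, ?_, fun k' hk' => ?_⟩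
    · simp only
      rw [hcomm (-j) (k * M) a, hcomm (-j) (k * M) b, hcomm (-j) (k * M) c, hk1, hjj, hjj, hjj]
    · simp only
      rw [hcomm (-j) (k' * M) a, hcomm (-j) (k' * M) b, hcomm (-j) (k' * M) c]
      exact hk2 k' hk'

end PNerve

end Vale.Agent.P267.H82
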