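import Vale.Agent.P267.H82.Per

/-!
P267, package LATTICE-LIFT: the algebraic core of step T1.
-/

set_option autoImplicit false

namespace Vale.Agent.P267.H82

section

variable {C : Type*} [AddCommGroup C]

lemma addSubgroup_fg_of_le {P Q : AddSubgroup C} (hP : P.FG) (h : Q ≤ P) : Q.FG := by
  have h1 : (AddSubgroup.toIntSubmodule P).FG := by
    rwa [Submodule.fg_iff_addSubgroup_fg, AddSubgroup.toIntSubmodule_toAddSubgroup]
  have h2 : (AddSubgroup.toIntSubmodule Q).FG := h1.of_le fun x hx => h hx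
  rwa [Submodule.fg_iff_addSubgroup_fg, AddSubgroup.toIntSubmodule_toAddSubgroup] at h2

/-- a finitely generated subgroup of an increasing union is contained in one of the members -/
lemma exists_le_of_fg {P : AddSubgroup C} (hP : P.FG) (Bl : ℕ → AddSubgroup C) (hmono : Monotone Bl)
    (h : ∀ c ∈ P, ∃ l, c ∈ Bl l) : ∃ l, P ≤ Bl l := by
  classical
  obtain ⟨S, hS⟩ := hP
  have h1 : ∀ c : C, ∃ l, c ∈ S → c ∈ Bl l := by
    intro c
    by_cases hc : c ∈ S
    · obtain ⟨l, hl⟩ := h c (by rw [← hS]; exact AddSubgroup.subset_closure hc)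
      exact ⟨l, fun _ => hl⟩
    · exact ⟨0, fun h => absurd h hc⟩
  choose f hf using h1
  refine ⟨S.sup f, ?_⟩
  rw [← hS, AddSubgroup.closure_le]
  intro c hc
  exact hmono (Finset.le_sup hc) (hf c hc)

/-- the elements of `C₀` with a positive multiple in `B₀` -/
def sat (C₀ B₀ : AddSubgroup C) : AddSubgroup C where
  carrier := {c | c ∈ C₀ ∧ ∃ n : ℕ, 0 < n ∧ n • c ∈ B₀}
  zero_mem' := ⟨C₀.zero_mem, 1, one_pos, by rw [smul_zero]; exact B₀.zero_mem⟩
  add_mem' := by
    rintro a b ⟨ha, n, hn, hna⟩ ⟨hb, m, hm, hmb⟩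
    refine ⟨C₀.add_mem ha hb, n * m, Nat.mul_pos hn hm, ?_⟩
    rw [smul_add]
    refine B₀.add_mem ?_ ?_
    · rw [mul_comm, mul_smul]
      exact B₀.nsmul_mem hna m
    · rw [mul_smul]
      exact B₀.nsmul_mem hmb n
  neg_mem' := by
    rintro a ⟨ha, n, hn, hna⟩
    refine ⟨C₀.neg_mem ha, n, hn, ?_⟩
    rw [smul_neg]
    exact B₀.neg_mem hna

lemma mem_sat {C₀ B₀ : AddSubgroup C} {c : C} :
    c ∈ sat C₀ B₀ ↔ c ∈ C₀ ∧ ∃ n : ℕ, 0 < n ∧ n • c ∈ B₀ := Iff.rfl

lemma sat_le (C₀ B₀ : AddSubgroup C) : sat C₀ B₀ ≤ C₀ := fun _ h => h.1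

/-- a character of a finitely generated free abelian group lifts to the real numbers -/
lemma exists_real_lift {Q : Type*} [AddCommGroup Q] [Module.Finite ℤ Q] [Module.IsTorsionFree ℤ Q]
    (f : Q →+ UnitAddCircle) : ∃ r : Q →+ ℝ, ∀ q, ((r q : ℝ) : UnitAddCircle) = f q := by
  have : Module.Free ℤ Q := Module.free_of_finite_type_torsion_free'
  let q : ℝ →+ UnitAddCircle := QuotientAddGroup.mk' (AddSubgroup.zmultiples (1 : ℝ))
  obtain ⟨h, hh⟩ := Module.projective_lifting_property q.toIntLinearMap f.toIntLinearMap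
    (QuotientAddGroup.mk'_surjective _)
  refine ⟨h.toAddMonoidHom, fun x => ?_⟩
  have := congrArg (fun g : Q →ₗ[ℤ] UnitAddCircle => g x) hh
  exact this

/-- a character of a finitely generated subgroup `C₀` which kills the saturation of `B₀` lifts to a
real character killing `B₀` -/
lemma exists_real_lift_sub {C₀ B₀ : AddSubgroup C} (hfg : C₀.FG) (f : C →+ UnitAddCircle)
    (hf : ∀ c ∈ sat C₀ B₀, f c = 0) :
    ∃ r : C₀ →+ ℝ, (∀ c : C₀, (c : C) ∈ B₀ → r c = 0) ∧
      ∀ c : C₀, ((r c : ℝ) : UnitAddCircle) = f c := by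
  let S : AddSubgroup C₀ := (sat C₀ B₀).comap C₀.subtype
  have hS : ∀ c : C₀, c ∈ S ↔ (c : C) ∈ sat C₀ B₀ := fun c => Iff.rfl
  let Q := C₀ ⧸ S
  have hfin : Module.Finite ℤ C₀ := by
    rw [Module.Finite.iff_addGroup_fg]
    exact (AddGroup.fg_iff_addSubgroup_fg C₀).mpr hfg
  have hfinQ : Module.Finite ℤ Q := by
    rw [Module.Finite.iff_addGroup_fg]
    have : AddGroup.FG C₀ := (AddGroup.fg_iff_addSubgroup_fg C₀).mpr hfg
    exact QuotientAddGroup.fg S
  have htf : Module.IsTorsionFree ℤ Q := by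
    refine ⟨fun n hn => ?_⟩
    have hn0 : n ≠ 0 := hn.ne_zero
    intro a b hab
    induction a using QuotientAddGroup.induction_on with
    | H a =>
    induction b using QuotientAddGroup.induction_on with
    | H b =>
    have h1 : ((n • (a - b) : C₀) : Q) = 0 := by
      rw [smul_sub]
      have h0 : n • (a : Q) = n • (b : Q) := hab
      rw [QuotientAddGroup.mk_sub]
      rw [sub_eq_zero]
      exact h0
    rw [QuotientAddGroup.eq_zero_iff, hS, mem_sat] at h1
    obtain ⟨-, m, hm, h2⟩ := h1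
    rw [← sub_eq_zero, ← QuotientAddGroup.mk_sub, QuotientAddGroup.eq_zero_iff, hS, mem_sat]
    refine ⟨(a - b).2, m * n.natAbs, Nat.mul_pos hm (Int.natAbs_pos.mpr hn0), ?_⟩
    rw [mul_smul]
    have h3 : n.natAbs • ((a - b : C₀) : C) = n • ((a - b : C₀) : C) ∨
        n.natAbs • ((a - b : C₀) : C) = -(n • ((a - b : C₀) : C)) := by
      rcases Int.natAbs_eq n with h | h
      · left
        conv_rhs => rw [h]
        rw [natCast_zsmul]
      · right
        conv_rhs => rw [h]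
        rw [neg_smul, neg_neg, natCast_zsmul]
    rcases h3 with h3 | h3
    · rw [h3]
      exact h2
    · rw [h3, smul_neg]
      exact B₀.neg_mem h2
  let f' : Q →+ UnitAddCircle := QuotientAddGroup.lift S (f.comp C₀.subtype) fun c hc => by
    exact hf _ ((hS c).mp hc)
  obtain ⟨r, hr⟩ := exists_real_lift f'
  refine ⟨r.comp (QuotientAddGroup.mk' S), fun c hc => ?_, fun c => ?_⟩
  · have : (QuotientAddGroup.mk' S) c = 0 := by
      rw [QuotientAddGroup.mk'_apply, QuotientAddGroup.eq_zero_iff, hS, mem_sat]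
      exact ⟨c.2, 1, one_pos, by rwa [one_smul]⟩
    rw [AddMonoidHom.comp_apply, this, map_zero]
  · rw [AddMonoidHom.comp_apply, hr]
    rfl

theorem abstract_ext (t : C ≃+ C) (B : AddSubgroup C) (hB : B.map t.toAddMonoidHom = B)
    (S : Set C) (hS : S.Finite)
    (hgen : ∀ K : AddSubgroup C, S ⊆ K → B ≤ K → (∀ n, n ∈ K → t n ∈ K) →
      (∀ n, n ∈ K → t.symm n ∈ K) → K = ⊤)
    (C₀ B₀ : AddSubgroup C) (hfg : C₀.FG) (hB₀ : B₀ ≤ B) (Bl : ℕ → AddSubgroup C)
    (hmono : Monotone Bl) (hBl : ∀ c ∈ B, ∃ l, c ∈ Bl l) :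
    ∃ l p : ℕ, 0 < p ∧ ∀ M, p ∣ M → ∀ a : C →+ UnitAddCircle, (∀ c ∈ Bl l, a c = 0) →
      ∃ g : C →+ UnitAddCircle, (∀ c ∈ B, g c = 0) ∧ (∀ c, g ((t : C → C)^[M] c) = g c) ∧
        ∃ r : C₀ →+ ℝ, (∀ c : C₀, (c : C) ∈ B₀ → r c = 0) ∧
          ∀ c : C₀, ((r c : ℝ) : UnitAddCircle) = a c - g c := by
  let N := C ⧸ B
  let π : C →+ N := QuotientAddGroup.mk' B
  have hπ : ∀ c, π c = 0 ↔ c ∈ B := fun c => by
    rw [QuotientAddGroup.mk'_apply, QuotientAddGroup.eq_zero_iff]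
  let t' : N ≃+ N := QuotientAddGroup.congr B B t hB
  have ht' : ∀ c, t' (π c) = π (t c) := fun c => rfl
  have ht's : ∀ c, t'.symm (π c) = π (t.symm c) := fun c => by
    rw [AddEquiv.symm_apply_eq, ht', AddEquiv.apply_symm_apply]
  have hiter : ∀ M c, (t' : N → N)^[M] (π c) = π ((t : C → C)^[M] c) := by
    intro M
    induction M with
    | zero => intro c; rfl
    | succ M ih => intro c; rw [Function.iterate_succ_apply, ht', ih, Function.iterate_succ_apply]
  -- the finite group of torsion classes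
  have hsfg : (sat C₀ B₀).FG := addSubgroup_fg_of_le hfg (sat_le _ _)
  let s : sat C₀ B₀ →+ N := π.comp (sat C₀ B₀).subtype
  have htor : ∀ x ∈ (s.range : Set N), ∃ l : ℕ, 0 < l ∧ l • x = 0 := by
    rintro x ⟨c, rfl⟩
    obtain ⟨-, n, hn, h⟩ := mem_sat.mp c.2
    refine ⟨n, hn, ?_⟩
    rw [← map_nsmul]
    exact (hπ _).mpr (hB₀ h)
  have hI : (s.range : Set N).Finite := by
    have h1 : AddGroup.FG (sat C₀ B₀) := (AddGroup.fg_iff_addSubgroup_fg _).mpr hsfg
    have h2 : AddGroup.FG s.range := inferInstance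
    have h3 : Module.Finite ℤ s.range := Module.Finite.iff_addGroup_fg.mpr h2
    have h4 : Module.IsTorsion ℤ s.range := by
      intro x
      obtain ⟨l, hl, hx⟩ := htor x x.2
      refine ⟨⟨(l : ℤ), mem_nonZeroDivisors_of_ne_zero (by exact_mod_cast hl.ne')⟩, ?_⟩
      apply Subtype.ext
      have : ((l : ℤ) • (x : N)) = 0 := by rw [natCast_zsmul]; exact hx
      exact this
    exact Module.finite_of_fg_torsion _ h4
  have hgenN : ∀ K : AddSubgroup N, π '' S ⊆ K → (∀ n, n ∈ K → t' n ∈ K) →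
      (∀ n, n ∈ K → t'.symm n ∈ K) → K = ⊤ := by
    intro K hSK h1 h2
    have h3 := hgen (K.comap π) (fun c hc => hSK ⟨c, hc, rfl⟩) (fun c hc => by
      rw [AddSubgroup.mem_comap, (hπ c).mpr hc]
      exact K.zero_mem) (fun c hc => by
        rw [AddSubgroup.mem_comap, ← ht']
        exact h1 _ hc) (fun c hc => by
        rw [AddSubgroup.mem_comap, ← ht's]
        exact h2 _ hc)
    rw [eq_top_iff]
    intro n _
    obtain ⟨c, rfl⟩ := QuotientAddGroup.mk'_surjective B n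
    have : c ∈ K.comap π := by rw [h3]; trivial
    exact this
  obtain ⟨p, hp, hper⟩ :=
    exists_period_auto t' (π '' S) (hS.image π) hgenN (s.range : Set N) hI htor
  -- the window in which the kernel of the map on torsion dies
  obtain ⟨l, hl⟩ := exists_le_of_fg (P := sat C₀ B₀ ⊓ B)
    (addSubgroup_fg_of_le hsfg inf_le_left) Bl hmono fun c hc => hBl c hc.2
  refine ⟨l, p, hp, fun M hM a ha => ?_⟩
  obtain ⟨g, hg1, hg2⟩ := exists_extension_per (D := UnitAddCircle) t' s M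
    (fun x hx n hn => hper M hM x hx n hn) (a.comp (sat C₀ B₀).subtype) (fun c hc => by
      refine ha _ (hl ⟨c.2, ?_⟩)
      exact (hπ _).mp hc)
  refine ⟨g.comp π, fun c hc => ?_, fun c => ?_, ?_⟩
  · rw [AddMonoidHom.comp_apply, (hπ c).mpr hc, map_zero]
  · rw [AddMonoidHom.comp_apply, ← hiter, hg2]
    rfl
  · obtain ⟨r, hr1, hr2⟩ := exists_real_lift_sub (B₀ := B₀) hfg (a - g.comp π) (fun c hc => by
      have := hg1 ⟨c, hc⟩
      rw [AddMonoidHom.sub_apply, sub_eq_zero]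
      exact this.symm)
    exact ⟨r, hr1, hr2⟩

end

end Vale.Agent.P267.H82
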