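import Vale.Agent.P267.H82.Test

/-!
P267, package LATTICE-LIFT: two-cycles as real chains supported on a finite set of vertices.
-/

set_option autoImplicit false

namespace Vale.Agent.P267.H82

open Finsupp

variable {ι : Type*} [DecidableEq ι]

/-- the vertices of a two-chain -/
noncomputable def verts (y : Ch2 ι) : Finset (ι × ℤ) :=
  y.support.image (fun p => p.1) ∪ y.support.image (fun p => p.2.1) ∪
    y.support.image (fun p => p.2.2)

theorem mem_verts {y : Ch2 ι} {a b c : ι × ℤ} (h : y (a, b, c) ≠ 0) :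
    a ∈ verts y ∧ b ∈ verts y ∧ c ∈ verts y := by
  have h1 : (a, b, c) ∈ y.support := Finsupp.mem_support_iff.mpr h
  unfold verts
  simp only [Finset.mem_union, Finset.mem_image]
  exact ⟨Or.inl (Or.inl ⟨_, h1, rfl⟩), Or.inl (Or.inr ⟨_, h1, rfl⟩), Or.inr ⟨_, h1, rfl⟩⟩

theorem support_subset_verts (y : Ch2 ι) :
    y.support ⊆ (verts y) ×ˢ ((verts y) ×ˢ (verts y)) := by
  intro p hp
  obtain ⟨h1, h2, h3⟩ := mem_verts (y := y) (a := p.1) (b := p.2.1) (c := p.2.2)
    (Finsupp.mem_support_iff.mp hp)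
  simp [Finset.mem_product, h1, h2, h3]

theorem sum_verts {G : Type*} [AddCommGroup G] (y : Ch2 ι)
    (F : (ι × ℤ) → (ι × ℤ) → (ι × ℤ) → ℤ → G) (hF : ∀ a b c, F a b c 0 = 0) :
    (y.sum fun p n => F p.1 p.2.1 p.2.2 n) =
      ∑ a ∈ verts y, ∑ b ∈ verts y, ∑ c ∈ verts y, F a b c (y (a, b, c)) := by
  rw [Finsupp.sum_of_support_subset y (support_subset_verts y) _ (fun p _ => hF _ _ _),
    Finset.sum_product]
  refine Finset.sum_congr rfl fun a _ => ?_
  rw [Finset.sum_product]

theorem ev_verts {G : Type*} [AddCommGroup G] (z : ι × ℤ → ι × ℤ → ι × ℤ → G) (y : Ch2 ι) :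
    ev z y = ∑ a ∈ verts y, ∑ b ∈ verts y, ∑ c ∈ verts y, y (a, b, c) • z a b c := by
  rw [ev_eq_sum]
  exact sum_verts y (fun a b c n => n • z a b c) (fun a b c => zero_smul _ _)

theorem bdr_eq_sum (y : Ch2 ι) : bdr y = y.sum fun p n => n • tri p.1 p.2.1 p.2.2 := by
  unfold bdr
  rw [Finsupp.liftAddHom_apply]
  rfl

theorem tri_apply (a b c j k : ι × ℤ) : (tri a b c) (j, k) =
    (if b = j ∧ c = k then 1 else 0) - (if a = j ∧ c = k then 1 else 0) +
      (if a = j ∧ b = k then 1 else 0) := by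
  unfold tri ed
  simp only [Finsupp.add_apply, Finsupp.sub_apply, Finsupp.single_apply, Prod.mk.injEq]

/-- the cycle condition, edge by edge -/
theorem cycle_verts {y : Ch2 ι} (hy : bdr y = 0) (j k : ι × ℤ) (hj : j ∈ verts y)
    (hk : k ∈ verts y) : ∑ i ∈ verts y, (y (i, j, k) - y (j, i, k) + y (j, k, i)) = 0 := by
  have h1 : (bdr y) (j, k) = 0 := by rw [hy]; rfl
  have h2 : bdr y = ∑ a ∈ verts y, ∑ b ∈ verts y, ∑ c ∈ verts y, y (a, b, c) • tri a b c := by
    rw [bdr_eq_sum]
    exact sum_verts y (fun a b c n => n • tri a b c) (fun a b c => zero_smul _ _)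
  rw [h2] at h1
  simp only [Finsupp.finsetSum_apply, Finsupp.smul_apply, tri_apply, smul_eq_mul, mul_add,
    mul_sub, mul_ite, mul_one, mul_zero, Finset.sum_add_distrib, Finset.sum_sub_distrib] at h1
  have e1 : ∑ a ∈ verts y, ∑ b ∈ verts y, ∑ c ∈ verts y,
      (if b = j ∧ c = k then y (a, b, c) else 0) = ∑ a ∈ verts y, y (a, j, k) := by
    refine Finset.sum_congr rfl fun a _ => ?_
    rw [Finset.sum_eq_single j, Finset.sum_eq_single k]
    · simp
    · intro c _ hc; rw [if_neg]; rintro ⟨-, h⟩; exact hc h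
    · intro h; exact absurd hk h
    · intro b _ hb
      refine Finset.sum_eq_zero fun c _ => ?_
      rw [if_neg]; rintro ⟨h, -⟩; exact hb h
    · intro h; exact absurd hj h
  have e2 : ∑ a ∈ verts y, ∑ b ∈ verts y, ∑ c ∈ verts y,
      (if a = j ∧ c = k then y (a, b, c) else 0) = ∑ b ∈ verts y, y (j, b, k) := by
    rw [Finset.sum_eq_single j]
    · refine Finset.sum_congr rfl fun b _ => ?_
      rw [Finset.sum_eq_single k]
      · simp
      · intro c _ hc; rw [if_neg]; rintro ⟨-, h⟩; exact hc h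
      · intro h; exact absurd hk h
    · intro a _ ha
      refine Finset.sum_eq_zero fun b _ => Finset.sum_eq_zero fun c _ => ?_
      rw [if_neg]; rintro ⟨h, -⟩; exact ha h
    · intro h; exact absurd hj h
  have e3 : ∑ a ∈ verts y, ∑ b ∈ verts y, ∑ c ∈ verts y,
      (if a = j ∧ b = k then y (a, b, c) else 0) = ∑ c ∈ verts y, y (j, k, c) := by
    rw [Finset.sum_eq_single j]
    · rw [Finset.sum_eq_single k]
      · simp
      · intro b _ hb
        refine Finset.sum_eq_zero fun c _ => ?_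
        rw [if_neg]; rintro ⟨-, h⟩; exact hb h
      · intro h; exact absurd hk h
    · intro a _ ha
      refine Finset.sum_eq_zero fun b _ => Finset.sum_eq_zero fun c _ => ?_
      rw [if_neg]; rintro ⟨h, -⟩; exact ha h
    · intro h; exact absurd hj h
  rw [e1, e2, e3] at h1
  rw [Finset.sum_add_distrib, Finset.sum_sub_distrib]
  exact h1

end Vale.Agent.P267.H82
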