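import Mathlib

/-!
P267, package LATTICE-LIFT, steps 1-2: extension of characters from a finite subgroup of an abelian
group with an automorphism, periodically.
-/

set_option autoImplicit false

namespace Vale.Agent.P267.H82

section Per

variable {N : Type*} [AddCommGroup N] (t : N ≃+ N)

/-- the iterates of an automorphism -/
def it (k : ℕ) (n : N) : N := (t : N → N)^[k] n

lemma it_zero (n : N) : it t 0 n = n := rfl

lemma it_add (k l : ℕ) (n : N) : it t (k + l) n = it t k (it t l n) := by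
  unfold it
  rw [Function.iterate_add_apply]

lemma it_inj (k : ℕ) : Function.Injective (it t k) := by
  unfold it
  exact Function.Injective.iterate t.injective k

/-- the iterates as additive homomorphisms -/
def itHom : ℕ → N →+ N
  | 0 => AddMonoidHom.id N
  | k + 1 => (itHom k).comp t.toAddMonoidHom

lemma itHom_apply (k : ℕ) (n : N) : itHom t k n = it t k n := by
  induction k generalizing n with
  | zero => rfl
  | succ k ih =>
    rw [itHom, AddMonoidHom.comp_apply, ih]
    rfl

lemma it_mul_of_fix {q : ℕ} {n : N} (h : it t q n = n) (k : ℕ) : it t (q * k) n = n := by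
  induction k with
  | zero => rfl
  | succ k ih => rw [Nat.mul_succ, it_add, h, ih]

/-- For a finite set `I` there is `M₀ ≥ 1` such that for every positive multiple `M` of `M₀` the
relation `n = t^M n'` with `n, n' ∈ I` implies `n = n'`. -/
theorem exists_period (I : Set N) (hI : I.Finite) :
    ∃ M₀ : ℕ, 0 < M₀ ∧ ∀ M : ℕ, 0 < M → M₀ ∣ M →
      ∀ n ∈ I, ∀ n' ∈ I, n = it t M n' → n = n' := by
  classical
  have key : ∀ x : N × N, ∃ M₀ : ℕ, 0 < M₀ ∧ ∀ M : ℕ, 0 < M → M₀ ∣ M →
      x.1 = it t M x.2 → x.1 = x.2 := by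
    rintro ⟨n, n'⟩
    by_cases hper : ∃ q, 0 < q ∧ it t q n' = n'
    · obtain ⟨q, hq, hqn⟩ := hper
      refine ⟨q, hq, fun M hM hd h => ?_⟩
      obtain ⟨k, rfl⟩ := hd
      simp only at h ⊢
      rw [h, it_mul_of_fix t hqn]
    · by_cases hex : ∃ M, 0 < M ∧ n = it t M n'
      · obtain ⟨M₁, hM₁, h₁⟩ := hex
        refine ⟨M₁ + 1, Nat.succ_pos _, fun M hM hd h => ?_⟩
        exfalso
        have hle : M₁ + 1 ≤ M := Nat.le_of_dvd hM hd
        apply hper
        refine ⟨M - M₁, by omega, ?_⟩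
        apply it_inj t M₁
        rw [← it_add, show M₁ + (M - M₁) = M by omega, ← h₁]
        exact h.symm
      · refine ⟨1, Nat.one_pos, fun M hM _ h => ?_⟩
        exact absurd ⟨M, hM, h⟩ hex
  choose F hF0 hF using key
  have hfin : (I ×ˢ I).Finite := hI.prod hI
  refine ⟨∏ x ∈ hfin.toFinset, F x, Finset.prod_pos fun x _ => hF0 x, ?_⟩
  intro M hM hd n hn n' hn' h
  refine hF (n, n') M hM (dvd_trans (Finset.dvd_prod_of_mem F ?_) hd) h
  rw [Set.Finite.mem_toFinset]
  exact ⟨hn, hn'⟩

/-- Extension of a character of a subgroup `I` to a character `g` of `N` with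
`g = χ` on `I` and `g (t^M n) = χ n` for `n ∈ I`. -/
theorem exists_extension {D : Type*} [AddCommGroup D] [DivisibleBy D ℤ] (I : AddSubgroup N)
    (M : ℕ) (hM : ∀ n ∈ I, ∀ n' ∈ I, n = it t M n' → n = n') (χ : I →+ D) :
    ∃ g : N →+ D, (∀ n : I, g n = χ n) ∧ ∀ n : I, g (it t M n) = χ n := by
  -- the homomorphism `I × I → N`, `(a, b) ↦ a + t^M b`
  let φ : (I × I) →+ N :=
    (I.subtype.comp (AddMonoidHom.fst I I)) + ((itHom t M).comp (I.subtype.comp
      (AddMonoidHom.snd I I)))
  let ψ : (I × I) →+ D := χ.comp (AddMonoidHom.fst I I) + χ.comp (AddMonoidHom.snd I I)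
  have hφ : ∀ x : I × I, φ x = (x.1 : N) + it t M x.2 := by
    intro x
    simp only [φ, AddMonoidHom.add_apply, AddMonoidHom.comp_apply, AddMonoidHom.coe_fst,
      AddMonoidHom.coe_snd, AddSubgroup.coe_subtype, itHom_apply]
  have hψ : ∀ x : I × I, ψ x = χ x.1 + χ x.2 := fun x => rfl
  have hker : φ.ker ≤ ψ.ker := by
    intro x hx
    rw [AddMonoidHom.mem_ker, hφ] at hx
    rw [AddMonoidHom.mem_ker, hψ]
    have h1 : (x.1 : N) = it t M ((-x.2 : I) : N) := by
      have h2 : it t M ((-x.2 : I) : N) = -it t M (x.2 : N) := by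
        rw [← itHom_apply, ← itHom_apply, ← map_neg]
        rfl
      rw [h2]
      exact eq_neg_of_add_eq_zero_left hx
    have h3 := hM _ x.1.2 _ (-x.2).2 h1
    have h4 : x.1 = -x.2 := Subtype.ext h3
    rw [h4, map_neg, neg_add_cancel]
  -- factor through the range
  let g₀ : φ.range →+ D :=
    (QuotientAddGroup.lift φ.ker ψ hker).comp (QuotientAddGroup.quotientKerEquivRange φ).symm
  have hg₀ : ∀ x : I × I, g₀ ⟨φ x, ⟨x, rfl⟩⟩ = ψ x := by
    intro x
    simp only [g₀, AddMonoidHom.comp_apply]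
    have h5 : (QuotientAddGroup.quotientKerEquivRange φ).symm ⟨φ x, ⟨x, rfl⟩⟩
        = (QuotientAddGroup.mk x : (I × I) ⧸ φ.ker) := by
      rw [AddEquiv.symm_apply_eq]
      rfl
    have h6 : ((QuotientAddGroup.quotientKerEquivRange φ).symm : φ.range →+ (I × I) ⧸ φ.ker)
        ⟨φ x, ⟨x, rfl⟩⟩ = (QuotientAddGroup.mk x : (I × I) ⧸ φ.ker) := h5
    rw [h6]
    rfl
  have hinj : Function.Injective φ.range.subtype := Subtype.val_injective
  obtain ⟨g, hg⟩ := Module.Baer.extension_property_addMonoidHom (Module.Baer.of_divisible D)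
    φ.range.subtype hinj g₀
  have hg' : ∀ x : I × I, g (φ x) = ψ x := by
    intro x
    rw [← hg₀ x, ← hg]
    rfl
  refine ⟨g, fun n => ?_, fun n => ?_⟩
  · have := hg' (n, 0)
    rw [hφ, hψ] at this
    simpa [it_zero, ← itHom_apply] using this
  · have := hg' (0, n)
    rw [hφ, hψ] at this
    simpa using this

end Per

end Vale.Agent.P267.H82
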