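import Mathlib

/-!
P267, package LATTICE-LIFT, step T0: for a finitely generated module `N` over a finitely generated
commutative ring `R`, a unit `u` and a finite set `I` of torsion elements there is `p ≥ 1` such
that `I ∩ (u^M - 1) N = 0` for all positive multiples `M` of `p`.
-/

set_option autoImplicit false

namespace Vale.Agent.P267.H82

section Krull

variable {R : Type*} [CommRing R]

/-- if `w - 1 ∈ m ^ (j + 1)` and `q ∈ m`, then `w ^ q - 1 ∈ m ^ (j + 2)` -/
lemma pow_sub_one_mem {m : Ideal R} {q : ℕ} (hq : (q : R) ∈ m) {w : R} {j : ℕ}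
    (hw : w - 1 ∈ m ^ (j + 1)) : w ^ q - 1 ∈ m ^ (j + 2) := by
  have hwm : w - 1 ∈ m := Ideal.pow_le_self (Nat.succ_ne_zero j) hw
  have h1 : w ^ q - 1 = (w - 1) * ∑ i ∈ Finset.range q, w ^ i := by
    rw [mul_comm, geom_sum_mul]
  have h2 : (∑ i ∈ Finset.range q, w ^ i) ∈ m := by
    have h3 : (∑ i ∈ Finset.range q, w ^ i) = (∑ i ∈ Finset.range q, (w ^ i - 1)) + q := by
      rw [Finset.sum_sub_distrib]
      simp
    rw [h3]
    refine m.add_mem (m.sum_mem fun i _ => ?_) hq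
    have h4 : w ^ i - 1 = (w - 1) * ∑ l ∈ Finset.range i, w ^ l := by
      rw [mul_comm, geom_sum_mul]
    rw [h4]
    exact m.mul_mem_right _ hwm
  rw [h1, show j + 2 = (j + 1) + 1 from rfl, pow_succ m (j + 1)]
  exact Ideal.mul_mem_mul hw h2

lemma exists_pow_sub_one_mem {m : Ideal R} [Finite (R ⧸ m)] (u : Rˣ) (k : ℕ) :
    ∃ p, 0 < p ∧ (u : R) ^ p - 1 ∈ m ^ k := by
  classical
  -- a power of `u` is `1` modulo `m`
  let v : (R ⧸ m)ˣ := Units.map (Ideal.Quotient.mk m : R →* R ⧸ m) u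
  have : Finite (R ⧸ m)ˣ := inferInstance
  have hv : 0 < orderOf v := orderOf_pos v
  have h1 : (u : R) ^ orderOf v - 1 ∈ m := by
    rw [← Ideal.Quotient.eq_zero_iff_mem, map_sub, map_pow, map_one, sub_eq_zero]
    have h0 := congrArg (fun z : (R ⧸ m)ˣ => (z : R ⧸ m)) (pow_orderOf_eq_one v)
    simp only [Units.val_pow_eq_pow_val, Units.val_one] at h0
    exact h0
  set q := Nat.card (R ⧸ m) with hqdef
  have hqpos : 0 < q := Nat.card_pos
  have hq : (q : R) ∈ m := by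
    rw [← Ideal.Quotient.eq_zero_iff_mem, map_natCast]
    have h := card_nsmul_eq_zero' (G := R ⧸ m) (x := 1)
    rw [nsmul_eq_mul, mul_one] at h
    exact h
  refine ⟨orderOf v * q ^ k, Nat.mul_pos hv (pow_pos hqpos _), ?_⟩
  have h2 : ∀ k : ℕ, (u : R) ^ (orderOf v * q ^ k) - 1 ∈ m ^ (k + 1) := by
    intro k
    induction k with
    | zero => simpa using h1
    | succ k ih =>
      have := pow_sub_one_mem hq ih
      rwa [← pow_mul, mul_assoc, ← pow_succ] at this
  exact Ideal.pow_le_pow_right (Nat.le_succ k) (h2 k)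

variable {N : Type*} [AddCommGroup N] [Module R N]

theorem exists_pow_of_prime [Algebra.FiniteType ℤ R] [Module.Finite R N] (u : Rˣ) {x : N}
    (hx : x ≠ 0) {l : ℕ} (hl : l.Prime) (hlx : (l : R) • x = 0) :
    ∃ p, 0 < p ∧ ∀ n : N, ((u : R) ^ p - 1) • n ≠ x := by
  classical
  have : IsNoetherianRing R := Algebra.FiniteType.isNoetherianRing ℤ R
  have : Fact l.Prime := ⟨hl⟩
  -- a maximal ideal containing the annihilator of `x`
  let J : Ideal R := LinearMap.ker (LinearMap.toSpanSingleton R N x)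
  have hJ : ∀ r, r ∈ J ↔ r • x = 0 := fun r => by
    simp only [J, LinearMap.mem_ker, LinearMap.toSpanSingleton_apply]
  have hJtop : J ≠ ⊤ := by
    intro h
    have h1 : (1 : R) ∈ J := by rw [h]; trivial
    rw [hJ, one_smul] at h1
    exact hx h1
  obtain ⟨m, hm, hJm⟩ := Ideal.exists_le_maximal J hJtop
  let : Field (R ⧸ m) := Ideal.Quotient.field m
  have hlm : (l : R) ∈ m := hJm ((hJ _).mpr hlx)
  have : CharP (R ⧸ m) l := by
    have h0 : ((l : ℕ) : R ⧸ m) = 0 := by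
      have := Ideal.Quotient.eq_zero_iff_mem.mpr hlm
      rwa [map_natCast] at this
    obtain ⟨q, hq⟩ := CharP.exists (R ⧸ m)
    have h1 : q ∣ l := (CharP.cast_eq_zero_iff (R ⧸ m) q l).mp h0
    rcases (Nat.dvd_prime hl).mp h1 with h2 | h2
    · subst h2
      exfalso
      have := CharP.cast_eq_zero (R ⧸ m) 1
      rw [Nat.cast_one] at this
      exact one_ne_zero this
    · rwa [← h2]
  let : Algebra (ZMod l) (R ⧸ m) := ZMod.algebra (R ⧸ m) l
  have : IsScalarTower ℤ (ZMod l) (R ⧸ m) := by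
    refine IsScalarTower.of_algebraMap_eq' ?_
    exact RingHom.ext_int _ _
  have : Algebra.FiniteType ℤ (R ⧸ m) :=
    Algebra.FiniteType.of_surjective (Ideal.Quotient.mkₐ ℤ m) (Ideal.Quotient.mkₐ_surjective ℤ m)
  have : Algebra.FiniteType (ZMod l) (R ⧸ m) :=
    Algebra.FiniteType.of_restrictScalars_finiteType ℤ (ZMod l) (R ⧸ m)
  have : Module.Finite (ZMod l) (R ⧸ m) := finite_of_finite_type_of_isJacobsonRing _ _
  have : Finite (R ⧸ m) := Module.finite_of_finite (ZMod l)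
  -- Krull
  have h3 : ∃ k : ℕ, x ∉ (m ^ k • ⊤ : Submodule R N) := by
    by_contra hne
    push Not at hne
    have h4 : x ∈ (⨅ i : ℕ, m ^ i • ⊤ : Submodule R N) := by
      rw [Submodule.mem_iInf]
      exact hne
    obtain ⟨r, hr⟩ := (Ideal.mem_iInf_smul_pow_eq_bot_iff m x).mp h4
    have h5 : (1 - (r : R)) ∈ J := by
      rw [hJ, sub_smul, one_smul, hr, sub_self]
    have h6 : (1 : R) ∈ m := by
      have := m.add_mem (hJm h5) r.2
      simpa using this
    exact hm.ne_top ((Ideal.eq_top_iff_one _).mpr h6)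
  obtain ⟨k, hk⟩ := h3
  obtain ⟨p, hp, hpm⟩ := exists_pow_sub_one_mem (m := m) u k
  refine ⟨p, hp, fun n hn => hk ?_⟩
  rw [← hn]
  exact Submodule.smul_mem_smul hpm trivial

theorem exists_pow_of_torsion [Algebra.FiniteType ℤ R] [Module.Finite R N] (u : Rˣ) {x : N}
    (hx : x ≠ 0) {l : ℕ} (hl : 0 < l) (hlx : l • x = 0) :
    ∃ p, 0 < p ∧ ∀ n : N, ((u : R) ^ p - 1) • n ≠ x := by
  classical
  have hfin : IsOfFinAddOrder x := isOfFinAddOrder_iff_nsmul_eq_zero.mpr ⟨l, hl, hlx⟩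
  have ho : 0 < addOrderOf x := hfin.addOrderOf_pos
  have ho1 : addOrderOf x ≠ 1 := by
    rw [Ne, AddMonoid.addOrderOf_eq_one_iff]
    exact hx
  obtain ⟨q, hq, hqo⟩ := Nat.exists_prime_and_dvd ho1
  obtain ⟨c, hc⟩ := hqo
  have hcpos : 0 < c := by
    rcases Nat.eq_zero_or_pos c with h | h
    · rw [h, mul_zero] at hc
      omega
    · exact h
  have hcx : c • x ≠ 0 := by
    intro h
    have h1 : addOrderOf x ∣ c := addOrderOf_dvd_of_nsmul_eq_zero h
    have h2 := Nat.le_of_dvd hcpos h1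
    rw [hc] at h2
    have := hq.two_le
    nlinarith
  have h2 : ((q : ℕ) : R) • (c • x) = 0 := by
    rw [Nat.cast_smul_eq_nsmul, ← mul_nsmul', ← hc]
    exact addOrderOf_nsmul_eq_zero x
  obtain ⟨p, hp, h3⟩ := exists_pow_of_prime u hcx hq h2
  refine ⟨p, hp, fun n hn => h3 (c • n) ?_⟩
  rw [← hn, smul_comm]

/-- the main statement of step T0 -/
theorem exists_period_torsion [Algebra.FiniteType ℤ R] [Module.Finite R N] (u : Rˣ) (I : Set N)
    (hI : I.Finite) (htor : ∀ x ∈ I, ∃ l : ℕ, 0 < l ∧ l • x = 0) :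
    ∃ p, 0 < p ∧ ∀ M, p ∣ M → ∀ x ∈ I, ∀ n : N, ((u : R) ^ M - 1) • n = x → x = 0 := by
  classical
  have key : ∀ x : N, ∃ p, 0 < p ∧ ∀ M, p ∣ M → x ∈ I → ∀ n : N,
      ((u : R) ^ M - 1) • n = x → x = 0 := by
    intro x
    by_cases hx : x ∈ I ∧ x ≠ 0
    · obtain ⟨l, hl, hlx⟩ := htor x hx.1
      obtain ⟨p, hp, h⟩ := exists_pow_of_torsion u hx.2 hl hlx
      refine ⟨p, hp, fun M hM _ n hn => ?_⟩
      exfalso
      obtain ⟨c, rfl⟩ := hM
      have h1 : (u : R) ^ (p * c) - 1 = ((u : R) ^ p - 1) *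
          ∑ i ∈ Finset.range c, ((u : R) ^ p) ^ i := by
        rw [pow_mul, mul_comm, geom_sum_mul]
      rw [h1, mul_smul] at hn
      exact h _ hn
    · refine ⟨1, Nat.one_pos, fun M _ hxI n _ => ?_⟩
      by_contra hne
      exact hx ⟨hxI, hne⟩
  choose F hF0 hF using key
  refine ⟨∏ x ∈ hI.toFinset, F x, Finset.prod_pos fun x _ => hF0 x, fun M hM x hx n hn => ?_⟩
  refine hF x M (dvd_trans (Finset.dvd_prod_of_mem F ?_) hM) hx n hn
  rwa [Set.Finite.mem_toFinset]

end Krull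

end Vale.Agent.P267.H82
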