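import Mathlib

/-!
P267, package LATTICE-LIFT, step 0: the deck group acts freely on the orthonormal basis of the
lattice of the `m`-fold cyclic cover, and Bessel's inequality.
-/

set_option autoImplicit false

namespace Vale.Agent.P267.H82

open Finset

section Ortho

variable {M : Type*} [AddCommGroup M] (C : M →ₗ[ℤ] M →ₗ[ℤ] ℤ)
  {κ : Type*} [Fintype κ] [DecidableEq κ] (c : Module.Basis κ ℤ M)
  (hc : ∀ i j, C (c i) (c j) = if i = j then 1 else 0)

include hc

lemma coeff_eq (x : M) (j : κ) : C x (c j) = c.repr x j := by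
  conv_lhs => rw [← c.sum_repr x]
  rw [map_sum, LinearMap.sum_apply]
  simp only [map_smul, LinearMap.smul_apply, hc, smul_eq_mul]
  rw [Finset.sum_eq_single j]
  · simp
  · intro i _ hij
    rw [if_neg hij, mul_zero]
  · intro h
    exact absurd (mem_univ _) h

lemma expand (x : M) : x = ∑ j, C x (c j) • c j := by
  conv_lhs => rw [← c.sum_repr x]
  exact Finset.sum_congr rfl fun j _ => by rw [coeff_eq C c hc]

lemma form_eq (x y : M) : C x y = ∑ j, C x (c j) * C y (c j) := by
  conv_lhs => rw [expand C c hc y]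
  rw [map_sum]
  refine Finset.sum_congr rfl fun j _ => ?_
  rw [map_smul, smul_eq_mul, mul_comm]

lemma form_symm (x y : M) : C x y = C y x := by
  rw [form_eq C c hc x y, form_eq C c hc y x]
  exact Finset.sum_congr rfl fun j _ => mul_comm _ _

lemma form_self_nonneg (x : M) : 0 ≤ C x x := by
  rw [form_eq C c hc]
  exact Finset.sum_nonneg fun j _ => mul_self_nonneg _

omit hc in
lemma deg_eq (x : M) : C x (∑ j, c j) = ∑ j, C x (c j) := by
  rw [map_sum]

/-- a vector whose norm equals its degree has coefficients `0` and `1` -/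
lemma coeff_zero_one {x : M} (h : C x x = C x (∑ j, c j)) (j : κ) :
    C x (c j) = 0 ∨ C x (c j) = 1 := by
  have h1 : ∑ j, (C x (c j) * C x (c j) - C x (c j)) = 0 := by
    rw [Finset.sum_sub_distrib, ← form_eq C c hc, ← deg_eq C c, h, sub_self]
  have h2 : ∀ j ∈ (univ : Finset κ), 0 ≤ C x (c j) * C x (c j) - C x (c j) := by
    intro j _
    rcases le_or_gt (C x (c j)) 0 with h3 | h3
    · nlinarith
    · have : 1 ≤ C x (c j) := h3
      nlinarith
  have h3 := (Finset.sum_eq_zero_iff_of_nonneg h2).mp h1 j (mem_univ _)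
  have h4 : C x (c j) * (C x (c j) - 1) = 0 := by linarith
  rcases mul_eq_zero.mp h4 with h5 | h5
  · exact Or.inl h5
  · exact Or.inr (by linarith)

/-- a vector of norm and degree one is a basis vector -/
lemma eq_basis {x : M} (h1 : C x x = 1) (h2 : C x (∑ j, c j) = 1) : ∃ j, x = c j := by
  have h3 := coeff_zero_one C c hc (h1.trans h2.symm)
  rw [deg_eq C c] at h2
  have h4 : ∃ j, C x (c j) = 1 := by
    by_contra hne
    push Not at hne
    have : ∑ j, C x (c j) = 0 := Finset.sum_eq_zero fun j _ => (h3 j).resolve_right (hne j)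
    omega
  obtain ⟨j, hj⟩ := h4
  refine ⟨j, ?_⟩
  have h5 : ∀ i, i ≠ j → C x (c i) = 0 := by
    intro i hij
    by_contra hne
    have h6 : C x (c i) = 1 := (h3 i).resolve_left hne
    have h7 : C x (c i) + C x (c j) ≤ ∑ k, C x (c k) := by
      have h8 : ∑ k ∈ ({i, j} : Finset κ), C x (c k) ≤ ∑ k, C x (c k) := by
        apply Finset.sum_le_sum_of_subset_of_nonneg (subset_univ _)
        intro k _ _
        rcases h3 k with h9 | h9 <;> omega
      rwa [Finset.sum_pair hij] at h8
    omega
  conv_lhs => rw [expand C c hc x]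
  rw [Finset.sum_eq_single j]
  · rw [hj, one_smul]
  · intro i _ hij
    rw [h5 i hij, zero_smul]
  · intro h
    exact absurd (mem_univ _) h

/-- Bessel's inequality for distinct basis vectors -/
lemma bessel (v : M) (s : Finset ℕ) (e : ℕ → κ) (he : ∀ k ∈ s, ∀ l ∈ s, e k = e l → k = l) :
    ∑ k ∈ s, C (c (e k)) v ^ 2 ≤ C v v := by
  rw [form_eq C c hc v v]
  have h1 : ∑ k ∈ s, C (c (e k)) v ^ 2 = ∑ j ∈ s.image e, C v (c j) * C v (c j) := by
    rw [Finset.sum_image he]
    refine Finset.sum_congr rfl fun k _ => ?_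
    rw [form_symm C c hc, sq]
  rw [h1]
  exact Finset.sum_le_sum_of_subset_of_nonneg (subset_univ _) fun j _ _ => mul_self_nonneg _

lemma card_le (v : M) (s : Finset ℕ) (e : ℕ → κ) (he : ∀ k ∈ s, ∀ l ∈ s, e k = e l → k = l) :
    ((s.filter fun k => C (c (e k)) v ≠ 0).card : ℤ) ≤ C v v := by
  refine le_trans ?_ (bessel C c hc v s e he)
  rw [Finset.card_eq_sum_ones, Nat.cast_sum, Finset.sum_filter]
  refine Finset.sum_le_sum fun k _ => ?_
  split_ifs with h
  · have : 0 < C (c (e k)) v ^ 2 := by positivity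
    push_cast
    omega
  · exact sq_nonneg _

end Ortho

section Free

variable {L M : Type*} [AddCommGroup L] [AddCommGroup M]
  (B : L →ₗ[ℤ] L →ₗ[ℤ] ℤ) (C : M →ₗ[ℤ] M →ₗ[ℤ] ℤ)
  {ι κ : Type*} [Fintype ι] [Fintype κ] [DecidableEq ι] [DecidableEq κ]
  (b : Module.Basis ι ℤ L) (c : Module.Basis κ ℤ M)
  (hb : ∀ i j, B (b i) (b j) = if i = j then 1 else 0)
  (hc : ∀ i j, C (c i) (c j) = if i = j then 1 else 0)

include hc in
lemma isometry_inj (γ : M →ₗ[ℤ] M) (hγ : ∀ x y, C (γ x) (γ y) = C x y) :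
    Function.Injective γ := by
  rw [injective_iff_map_eq_zero]
  intro x hx
  rw [expand C c hc x]
  apply Finset.sum_eq_zero
  intro j _
  rw [← hγ, hx, map_zero, LinearMap.zero_apply, zero_smul]

lemma iter_form (γ : M →ₗ[ℤ] M) (hγ : ∀ x y, C (γ x) (γ y) = C x y) (k : ℕ) (x y : M) :
    C (γ^[k] x) (γ^[k] y) = C x y := by
  induction k with
  | zero => rfl
  | succ k ih => rw [Function.iterate_succ_apply', Function.iterate_succ_apply', hγ, ih]

include hc in
lemma iter_basis (γ : M →ₗ[ℤ] M) (hγ : ∀ x y, C (γ x) (γ y) = C x y)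
    (hγK : γ (∑ j, c j) = ∑ j, c j) (j : κ) (k : ℕ) : ∃ i, γ^[k] (c j) = c i := by
  have hK : γ^[k] (∑ j, c j) = ∑ j, c j := by
    induction k with
    | zero => rfl
    | succ k ih => rw [Function.iterate_succ_apply', ih, hγK]
  apply eq_basis C c hc
  · rw [iter_form C γ hγ, hc, if_pos rfl]
  · rw [← hK, iter_form C γ hγ, map_sum]
    rw [Finset.sum_eq_single j]
    · rw [hc, if_pos rfl]
    · intro i _ hij
      rw [hc, if_neg hij.symm]
    · intro h
      exact absurd (mem_univ _) h

include hb hc in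
/-- The deck transformations act freely on the orthonormal basis. -/
theorem free_action (m : ℕ) (p : L →ₗ[ℤ] M) (q : M →ₗ[ℤ] L)
    (hp : ∀ x y, C (p x) (p y) = m * B x y) (hpK : p (∑ i, b i) = ∑ j, c j)
    (hq : ∀ x y, B (q x) y = C x (p y))
    (γ : M →ₗ[ℤ] M) (hγ : ∀ x y, C (γ x) (γ y) = C x y) (hγK : γ (∑ j, c j) = ∑ j, c j)
    (htr : ∀ x, p (q x) = ∑ k ∈ range m, γ^[k] x) (j : κ) :
    ∀ k < m, ∀ l < m, γ^[k] (c j) = γ^[l] (c j) → k = l := by
  -- coefficients of `p (b i)`
  have hP01 : ∀ i j, C (p (b i)) (c j) = 0 ∨ C (p (b i)) (c j) = 1 := by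
    intro i j
    apply coeff_zero_one C c hc
    rw [hp, ← hpK, hp, map_sum, hb, if_pos rfl]
    rw [Finset.sum_eq_single i]
    · rw [hb, if_pos rfl]
    · intro i' _ h
      rw [hb, if_neg h.symm]
    · intro h
      exact absurd (mem_univ _) h
  have hPd : ∀ i, C (p (b i)) (∑ j, c j) = m := by
    intro i
    rw [← hpK, hp, map_sum]
    rw [Finset.sum_eq_single i]
    · rw [hb, if_pos rfl, mul_one]
    · intro i' _ h
      rw [hb, if_neg h.symm]
    · intro h
      exact absurd (mem_univ _) h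
  have hqe : q (c j) = ∑ i, C (p (b i)) (c j) • b i := by
    conv_lhs => rw [expand B b hb (q (c j))]
    refine Finset.sum_congr rfl fun i _ => ?_
    rw [hq, form_symm C c hc]
  -- degree of `p (q (c j))`
  have h1 : C (p (q (c j))) (∑ j, c j) = ∑ i, C (p (b i)) (c j) * m := by
    generalize (∑ j, c j) = K at hPd ⊢
    rw [hqe, map_sum, map_sum, LinearMap.sum_apply]
    refine Finset.sum_congr rfl fun i _ => ?_
    rw [map_smul, map_smul, LinearMap.smul_apply, hPd, smul_eq_mul]
  have hdeg : ∀ k, C (γ^[k] (c j)) (∑ j, c j) = 1 := by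
    intro k
    obtain ⟨i, hi⟩ := iter_basis C c hc γ hγ hγK j k
    rw [hi, map_sum, Finset.sum_eq_single i]
    · rw [hc, if_pos rfl]
    · intro i' _ h
      rw [hc, if_neg h.symm]
    · intro h
      exact absurd (mem_univ _) h
  have h2 : C (p (q (c j))) (∑ j, c j) = m := by
    generalize (∑ j, c j) = K at hdeg ⊢
    rw [htr, map_sum, LinearMap.sum_apply, Finset.sum_congr rfl fun k _ => hdeg k]
    simp
  have h3 : ∀ k, C (γ^[k] (c j)) (c j) = 0 ∨ C (γ^[k] (c j)) (c j) = 1 := by
    intro k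
    obtain ⟨i, hi⟩ := iter_basis C c hc γ hγ hγK j k
    rw [hi, hc]
    split_ifs <;> simp
  have main : ∀ k, 0 < k → k < m → γ^[k] (c j) ≠ c j := by
    intro k hk0 hkm heq
    have hm : (0 : ℤ) < m := by
      have : 0 < m := by omega
      exact_mod_cast this
    have h4 : ∑ i, C (p (b i)) (c j) = 1 := by
      rw [h1, ← Finset.sum_mul] at h2
      have : (∑ i, C (p (b i)) (c j)) * m = 1 * m := by rw [h2, one_mul]
      exact mul_right_cancel₀ hm.ne' this
    have h5 : C (p (q (c j))) (c j) = ∑ i, C (p (b i)) (c j) * C (p (b i)) (c j) := by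
      rw [hqe, map_sum, map_sum, LinearMap.sum_apply]
      refine Finset.sum_congr rfl fun i _ => ?_
      rw [map_smul, map_smul, LinearMap.smul_apply, smul_eq_mul]
    have h6 : C (p (q (c j))) (c j) = 1 := by
      rw [h5, ← h4]
      refine Finset.sum_congr rfl fun i _ => ?_
      rcases hP01 i j with h | h <;> rw [h] <;> norm_num
    rw [htr, map_sum, LinearMap.sum_apply] at h6
    have h7 : C (γ^[0] (c j)) (c j) + C (γ^[k] (c j)) (c j)
        ≤ ∑ k ∈ range m, C (γ^[k] (c j)) (c j) := by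
      have hs : ({0, k} : Finset ℕ) ⊆ range m := by
        intro x hx
        rw [mem_insert, mem_singleton] at hx
        rw [mem_range]
        omega
      have h8 := Finset.sum_le_sum_of_subset_of_nonneg (f := fun k => C (γ^[k] (c j)) (c j)) hs
        (fun i _ _ => by rcases h3 i with h | h <;> rw [h] <;> norm_num)
      rwa [Finset.sum_pair (by omega)] at h8
    rw [heq, h6, Function.iterate_zero, id, hc, if_pos rfl] at h7
    norm_num at h7
  intro k hk l hl hkl
  rcases lt_trichotomy k l with h | h | h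
  · exfalso
    apply main (l - k) (by omega) (by omega)
    apply (isometry_inj C c hc γ hγ).iterate k
    rw [← Function.iterate_add_apply, show k + (l - k) = l by omega, hkl]
  · exact h
  · exfalso
    apply main (k - l) (by omega) (by omega)
    apply (isometry_inj C c hc γ hγ).iterate l
    rw [← Function.iterate_add_apply, show l + (k - l) = k by omega, hkl]

include hb hc in
/-- Localisation: if the norms of the vectors `v i` add up to less than `m`, then some translate
of the basis vector `c j` is orthogonal to all of them. -/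
theorem exists_orthogonal (m : ℕ) (p : L →ₗ[ℤ] M) (q : M →ₗ[ℤ] L)
    (hp : ∀ x y, C (p x) (p y) = m * B x y) (hpK : p (∑ i, b i) = ∑ j, c j)
    (hq : ∀ x y, B (q x) y = C x (p y))
    (γ : M →ₗ[ℤ] M) (hγ : ∀ x y, C (γ x) (γ y) = C x y) (hγK : γ (∑ j, c j) = ∑ j, c j)
    (htr : ∀ x, p (q x) = ∑ k ∈ range m, γ^[k] x) (j : κ)
    {σ : Type*} (s : Finset σ) (v : σ → M) (hv : ∑ i ∈ s, C (v i) (v i) < m) :
    ∃ k < m, ∀ i ∈ s, C (γ^[k] (c j)) (v i) = 0 := by
  classical
  choose e he using iter_basis C c hc γ hγ hγK j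
  have hinj : ∀ k ∈ range m, ∀ l ∈ range m, e k = e l → k = l := by
    intro k hk l hl hkl
    refine free_action B C b c hb hc m p q hp hpK hq γ hγ hγK htr j k (mem_range.mp hk) l
      (mem_range.mp hl) ?_
    rw [he, he, hkl]
  by_contra hne
  push Not at hne
  have h1 : range m ⊆ s.biUnion fun i => (range m).filter fun k => C (c (e k)) (v i) ≠ 0 := by
    intro k hk
    obtain ⟨i, hi, hik⟩ := hne k (mem_range.mp hk)
    rw [mem_biUnion]
    refine ⟨i, hi, ?_⟩
    rw [mem_filter]
    refine ⟨hk, ?_⟩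
    rwa [← he]
  have h2 : (m : ℤ) ≤ ∑ i ∈ s, C (v i) (v i) := by
    have h3 := (Finset.card_le_card h1).trans Finset.card_biUnion_le
    rw [card_range] at h3
    calc (m : ℤ) ≤ ((∑ i ∈ s, ((range m).filter fun k => C (c (e k)) (v i) ≠ 0).card : ℕ) : ℤ) := by
          exact_mod_cast h3
      _ = ∑ i ∈ s, (((range m).filter fun k => C (c (e k)) (v i) ≠ 0).card : ℤ) := by
          push_cast
          rfl
      _ ≤ ∑ i ∈ s, C (v i) (v i) :=
          Finset.sum_le_sum fun i _ => card_le C c hc (v i) (range m) e hinj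
  omega

end Free

end Vale.Agent.P267.H82
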