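import Vale.Agent.P267.H82.Abs

/-!
P267, package LATTICE-LIFT, step T1: cochains on the nerve of a periodic cover.
-/

set_option autoImplicit false

namespace Vale.Agent.P267.H82

open Finsupp

variable {ι : Type*}

/-- translation of the vertices of the nerve of a periodic cover -/
def sh (k : ℤ) (a : ι × ℤ) : ι × ℤ := (a.1, a.2 + k)

@[simp] lemma sh_fst (k : ℤ) (a : ι × ℤ) : (sh k a).1 = a.1 := rfl

@[simp] lemma sh_snd (k : ℤ) (a : ι × ℤ) : (sh k a).2 = a.2 + k := rfl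

@[simp] lemma sh_zero (a : ι × ℤ) : sh 0 a = a := by
  unfold sh
  rw [add_zero]

lemma sh_sh (k l : ℤ) (a : ι × ℤ) : sh k (sh l a) = sh (k + l) a := by
  unfold sh
  simp only [Prod.mk.injEq, true_and]
  ring

/-- the triangles of the nerve of a periodic cover -/
structure PNerve (ι : Type*) where
  /-- ordered triangles -/
  T : ι × ℤ → ι × ℤ → ι × ℤ → Prop
  /-- the width -/
  w : ℕ
  shift : ∀ (k : ℤ) (a b c : ι × ℤ), T (sh k a) (sh k b) (sh k c) ↔ T a b c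
  width : ∀ a b c : ι × ℤ, T a b c → |b.2 - a.2| ≤ w ∧ |c.2 - b.2| ≤ w ∧ |c.2 - a.2| ≤ w

/-- one-chains -/
abbrev Ch (ι : Type*) := ((ι × ℤ) × (ι × ℤ)) →₀ ℤ

/-- an edge -/
noncomputable def ed (a b : ι × ℤ) : Ch ι := single (a, b) 1

/-- the boundary of a triangle -/
noncomputable def tri (a b c : ι × ℤ) : Ch ι := ed b c - ed a c + ed a b

/-- translation as an equivalence -/
def shE (ι : Type*) : ι × ℤ ≃ ι × ℤ where
  toFun := sh 1
  invFun := sh (-1)
  left_inv a := by rw [sh_sh]; simp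
  right_inv a := by rw [sh_sh]; simp

/-- translation on one-chains -/
noncomputable def tE (ι : Type*) : Ch ι ≃+ Ch ι :=
  Finsupp.domCongr (Equiv.prodCongr (shE ι) (shE ι))

lemma tE_ed (a b : ι × ℤ) : tE ι (ed a b) = ed (sh 1 a) (sh 1 b) := by
  unfold tE ed
  rw [Finsupp.domCongr_apply, Finsupp.equivMapDomain_single]
  rfl

lemma tE_symm_ed (a b : ι × ℤ) : (tE ι).symm (ed a b) = ed (sh (-1) a) (sh (-1) b) := by
  rw [AddEquiv.symm_apply_eq, tE_ed, sh_sh, sh_sh]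
  simp

lemma tE_tri (a b c : ι × ℤ) : tE ι (tri a b c) = tri (sh 1 a) (sh 1 b) (sh 1 c) := by
  unfold tri
  rw [map_add, map_sub, tE_ed, tE_ed, tE_ed]

lemma tE_symm_tri (a b c : ι × ℤ) :
    (tE ι).symm (tri a b c) = tri (sh (-1) a) (sh (-1) b) (sh (-1) c) := by
  unfold tri
  rw [map_add, map_sub, tE_symm_ed, tE_symm_ed, tE_symm_ed]

lemma tE_iter_ed (M : ℕ) (a b : ι × ℤ) :
    (tE ι : Ch ι → Ch ι)^[M] (ed a b) = ed (sh M a) (sh M b) := by
  induction M generalizing a b with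
  | zero => simp
  | succ M ih =>
    rw [Function.iterate_succ_apply, tE_ed, ih, sh_sh, sh_sh]
    push_cast
    rfl

section Char

variable {G : Type*} [AddCommGroup G]

/-- the homomorphism given by a one-cochain -/
noncomputable def ch (α : ι × ℤ → ι × ℤ → G) : Ch ι →+ G :=
  Finsupp.liftAddHom fun p => zmultiplesHom G (α p.1 p.2)

@[simp] lemma ch_ed (α : ι × ℤ → ι × ℤ → G) (a b : ι × ℤ) : ch α (ed a b) = α a b := by
  unfold ch ed
  rw [Finsupp.liftAddHom_apply_single]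
  simp

lemma ch_tri (α : ι × ℤ → ι × ℤ → G) (a b c : ι × ℤ) :
    ch α (tri a b c) = α b c - α a c + α a b := by
  unfold tri
  rw [map_add, map_sub, ch_ed, ch_ed, ch_ed]

end Char

/-- the edges generate the one-chains -/
lemma closure_ed_eq_top (K : AddSubgroup (Ch ι)) (h : ∀ a b, ed a b ∈ K) : K = ⊤ := by
  rw [eq_top_iff]
  intro c _
  induction c using Finsupp.induction_linear with
  | zero => exact K.zero_mem
  | add f g hf hg => exact K.add_mem (hf trivial) (hg trivial)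
  | single p n =>
    have h1 : single p n = n • ed p.1 p.2 := by
      unfold ed
      rw [Finsupp.smul_single, smul_eq_mul, mul_one]
    rw [h1]
    exact K.zsmul_mem (h _ _) n

namespace PNerve

variable (K : PNerve ι)

/-- the relations inside a set of vertices -/
def rel (W : Set (ι × ℤ)) : Set (Ch ι) :=
  {x | ∃ a b c, K.T a b c ∧ a ∈ W ∧ b ∈ W ∧ c ∈ W ∧ x = tri a b c} ∪
    {x | ∃ a b : ι × ℤ, a ∈ W ∧ b ∈ W ∧ (K.w : ℤ) < |b.2 - a.2| ∧ x = ed a b}

/-- the subgroup generated by the relations inside a set of vertices -/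
noncomputable def bd (W : Set (ι × ℤ)) : AddSubgroup (Ch ι) := AddSubgroup.closure (K.rel W)

lemma rel_mono {W W' : Set (ι × ℤ)} (h : W ⊆ W') : K.rel W ⊆ K.rel W' := by
  rintro x (⟨a, b, c, hT, ha, hb, hc, rfl⟩ | ⟨a, b, ha, hb, hw, rfl⟩)
  · exact Or.inl ⟨a, b, c, hT, h ha, h hb, h hc, rfl⟩
  · exact Or.inr ⟨a, b, h ha, h hb, hw, rfl⟩

lemma bd_mono {W W' : Set (ι × ℤ)} (h : W ⊆ W') : K.bd W ≤ K.bd W' :=
  AddSubgroup.closure_mono (K.rel_mono h)

lemma ch_bd {G : Type*} [AddCommGroup G] (α : ι × ℤ → ι × ℤ → G) (W : Set (ι × ℤ))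
    (h1 : ∀ a b c, K.T a b c → a ∈ W → b ∈ W → c ∈ W → α b c - α a c + α a b = 0)
    (h2 : ∀ a b : ι × ℤ, (K.w : ℤ) < |b.2 - a.2| → α a b = 0) : ∀ c ∈ K.bd W, ch α c = 0 := by
  intro c hc
  have h3 : K.bd W ≤ (ch α).ker := by
    unfold bd
    rw [AddSubgroup.closure_le]
    rintro x (⟨a, b, c, hT, ha, hb, hc, rfl⟩ | ⟨a, b, ha, hb, hw, rfl⟩)
    · rw [SetLike.mem_coe, AddMonoidHom.mem_ker, ch_tri]
      exact h1 a b c hT ha hb hc
    · rw [SetLike.mem_coe, AddMonoidHom.mem_ker, ch_ed]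
      exact h2 a b hw
  exact h3 hc

lemma tri_mem_bd {W : Set (ι × ℤ)} {a b c : ι × ℤ} (hT : K.T a b c) (ha : a ∈ W) (hb : b ∈ W)
    (hc : c ∈ W) : tri a b c ∈ K.bd W :=
  AddSubgroup.subset_closure (Or.inl ⟨a, b, c, hT, ha, hb, hc, rfl⟩)

lemma map_bd : (K.bd Set.univ).map (tE ι).toAddMonoidHom = K.bd Set.univ := by
  apply le_antisymm
  · rw [AddSubgroup.map_le_iff_le_comap]
    nth_rewrite 1 [bd]
    rw [AddSubgroup.closure_le]
    rintro x (⟨a, b, c, hT, -, -, -, rfl⟩ | ⟨a, b, -, -, hw, rfl⟩)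
    · change tE ι (tri a b c) ∈ K.bd Set.univ
      rw [tE_tri]
      exact K.tri_mem_bd ((K.shift _ _ _ _).mpr hT) trivial trivial trivial
    · change tE ι (ed a b) ∈ K.bd Set.univ
      rw [tE_ed]
      refine AddSubgroup.subset_closure (Or.inr ⟨_, _, trivial, trivial, ?_, rfl⟩)
      simpa using hw
  · nth_rewrite 1 [bd]
    rw [AddSubgroup.closure_le]
    rintro x (⟨a, b, c, hT, -, -, -, rfl⟩ | ⟨a, b, -, -, hw, rfl⟩)
    · refine ⟨(tE ι).symm (tri a b c), ?_, (tE ι).apply_symm_apply _⟩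
      rw [tE_symm_tri]
      exact K.tri_mem_bd ((K.shift _ _ _ _).mpr hT) trivial trivial trivial
    · refine ⟨(tE ι).symm (ed a b), ?_, (tE ι).apply_symm_apply _⟩
      rw [tE_symm_ed]
      refine AddSubgroup.subset_closure (Or.inr ⟨_, _, trivial, trivial, ?_, rfl⟩)
      simpa using hw

/-- the window of half-width `l` -/
def win (ι : Type*) (l : ℕ) : Set (ι × ℤ) := {a | |a.2| ≤ l}

lemma win_mono {l l' : ℕ} (h : l ≤ l') : win ι l ⊆ win ι l' := by
  intro a ha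
  have h1 : |a.2| ≤ (l : ℤ) := ha
  have h2 : (l : ℤ) ≤ l' := by exact_mod_cast h
  exact h1.trans h2

lemma exists_mem_win (s : Finset (ι × ℤ)) : ∃ l, ∀ a ∈ s, a ∈ win ι l := by
  refine ⟨s.sup fun a => a.2.natAbs, fun a ha => ?_⟩
  have h1 : a.2.natAbs ≤ s.sup fun a => a.2.natAbs :=
    Finset.le_sup (f := fun a : ι × ℤ => a.2.natAbs) ha
  change |a.2| ≤ _
  rw [Int.abs_eq_natAbs]
  exact_mod_cast h1

lemma exists_bd_win {c : Ch ι} (hc : c ∈ K.bd Set.univ) : ∃ l, c ∈ K.bd (win ι l) := by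
  classical
  unfold bd at hc
  induction hc using AddSubgroup.closure_induction with
  | mem x hx =>
    rcases hx with ⟨a, b, c, hT, -, -, -, rfl⟩ | ⟨a, b, -, -, hw, rfl⟩
    · obtain ⟨l, hl⟩ := exists_mem_win {a, b, c}
      exact ⟨l, K.tri_mem_bd hT (hl a (by simp)) (hl b (by simp)) (hl c (by simp))⟩
    · obtain ⟨l, hl⟩ := exists_mem_win {a, b}
      exact ⟨l, AddSubgroup.subset_closure
        (Or.inr ⟨a, b, hl a (by simp), hl b (by simp), hw, rfl⟩)⟩
  | zero => exact ⟨0, AddSubgroup.zero_mem _⟩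
  | add x y _ _ hx hy =>
    obtain ⟨l, hl⟩ := hx
    obtain ⟨l', hl'⟩ := hy
    exact ⟨max l l', AddSubgroup.add_mem _ (K.bd_mono (win_mono (le_max_left _ _)) hl)
      (K.bd_mono (win_mono (le_max_right _ _)) hl')⟩
  | neg x _ hx =>
    obtain ⟨l, hl⟩ := hx
    exact ⟨l, AddSubgroup.neg_mem _ hl⟩

/-- the edges starting in level zero and of width at most `w` -/
def gens : Set (Ch ι) :=
  {x | ∃ (i j : ι) (d : ℤ), |d| ≤ K.w ∧ x = ed (i, 0) (j, d)}

lemma gens_finite [Finite ι] : K.gens.Finite := by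
  have h1 : K.gens ⊆ (fun p : (ι × ι) × ℤ => ed (p.1.1, (0 : ℤ)) (p.1.2, p.2)) ''
      ((Set.univ : Set (ι × ι)) ×ˢ Set.Icc (-(K.w : ℤ)) K.w) := by
    rintro x ⟨i, j, d, hd, rfl⟩
    exact ⟨((i, j), d), ⟨trivial, abs_le.mp hd⟩, rfl⟩
  refine Set.Finite.subset (Set.Finite.image _ ?_) h1
  exact Set.finite_univ.prod (Set.finite_Icc _ _)

lemma gens_gen (P : AddSubgroup (Ch ι)) (hS : K.gens ⊆ P) (hB : K.bd Set.univ ≤ P)
    (h1 : ∀ n, n ∈ P → tE ι n ∈ P) (h2 : ∀ n, n ∈ P → (tE ι).symm n ∈ P) : P = ⊤ := by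
  apply closure_ed_eq_top
  have key : ∀ (k : ℤ) (i j : ι) (d : ℤ), |d| ≤ K.w → ed (i, k) (j, k + d) ∈ P := by
    intro k
    induction k using Int.induction_on with
    | zero =>
      intro i j d hd
      rw [zero_add]
      exact hS ⟨i, j, d, hd, rfl⟩
    | succ k ih =>
      intro i j d hd
      have h3 := h1 _ (ih i j d hd)
      rw [tE_ed] at h3
      have h4 : sh 1 (i, (k : ℤ)) = (i, (k : ℤ) + 1) := rfl
      have h5 : sh 1 (j, (k : ℤ) + d) = (j, (k : ℤ) + 1 + d) := by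
        unfold sh
        simp only [Prod.mk.injEq, true_and]
        ring
      rwa [h4, h5] at h3
    | pred k ih =>
      intro i j d hd
      have h3 := h2 _ (ih i j d hd)
      rw [tE_symm_ed] at h3
      have h4 : sh (-1) (i, -(k : ℤ)) = (i, -(k : ℤ) - 1) := rfl
      have h5 : sh (-1) (j, -(k : ℤ) + d) = (j, -(k : ℤ) - 1 + d) := by
        unfold sh
        simp only [Prod.mk.injEq, true_and]
        ring
      rwa [h4, h5] at h3
  rintro ⟨i, k⟩ ⟨j, l⟩
  by_cases h : |l - k| ≤ K.w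
  · have h3 := key k i j (l - k) h
    rwa [add_sub_cancel] at h3
  · push Not at h
    exact hB (AddSubgroup.subset_closure (Or.inr ⟨_, _, trivial, trivial, h, rfl⟩))

/-- the group of edges of a window -/
noncomputable def edges (ι : Type*) (l : ℕ) : AddSubgroup (Ch ι) :=
  AddSubgroup.closure {x | ∃ a b : ι × ℤ, a ∈ win ι l ∧ b ∈ win ι l ∧ x = ed a b}

lemma ed_mem_edges {l : ℕ} {a b : ι × ℤ} (ha : a ∈ win ι l) (hb : b ∈ win ι l) :
    ed a b ∈ edges ι l := AddSubgroup.subset_closure ⟨a, b, ha, hb, rfl⟩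

lemma win_finite [Finite ι] (l : ℕ) : (win ι l).Finite := by
  have h1 : win ι l ⊆ (Set.univ : Set ι) ×ˢ Set.Icc (-(l : ℤ)) l := by
    rintro ⟨i, k⟩ h
    exact ⟨trivial, abs_le.mp h⟩
  exact Set.Finite.subset (Set.finite_univ.prod (Set.finite_Icc _ _)) h1

lemma edges_fg [Finite ι] (l : ℕ) : (edges ι l).FG := by
  have h1 : {x | ∃ a b : ι × ℤ, a ∈ win ι l ∧ b ∈ win ι l ∧ x = ed a b}.Finite := by
    have h2 : {x | ∃ a b : ι × ℤ, a ∈ win ι l ∧ b ∈ win ι l ∧ x = ed a b} ⊆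
        (fun p : (ι × ℤ) × (ι × ℤ) => ed p.1 p.2) '' (win ι l ×ˢ win ι l) := by
      rintro x ⟨a, b, ha, hb, rfl⟩
      exact ⟨(a, b), ⟨ha, hb⟩, rfl⟩
    exact Set.Finite.subset (Set.Finite.image _ ((win_finite l).prod (win_finite l))) h2
  exact ⟨h1.toFinset, by rw [Set.Finite.coe_toFinset]; rfl⟩

lemma tri_mem_edges {l : ℕ} {a b c : ι × ℤ} (ha : a ∈ win ι l) (hb : b ∈ win ι l)
    (hc : c ∈ win ι l) : tri a b c ∈ edges ι l := by
  unfold tri
  exact AddSubgroup.add_mem _ (AddSubgroup.sub_mem _ (ed_mem_edges hb hc) (ed_mem_edges ha hc))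
    (ed_mem_edges ha hb)

/-- **Step T1**, character form. For every window `W = win l₀` there are `l` and `p` such that, for
every multiple `M` of `p`, every real one-cochain `α` with integral coboundary on the window
`win l` is, on the window `W`, the sum of an `M`-periodic real cochain `β` whose coboundary is
integral, of a real cocycle `r` on `W` and of an integral cochain. -/
theorem exists_char [Finite ι] (l₀ : ℕ) :
    ∃ l p : ℕ, 0 < p ∧ ∀ M : ℕ, p ∣ M → ∀ α : ι × ℤ → ι × ℤ → ℝ,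
      (∀ a b c, K.T a b c → a ∈ win ι l → b ∈ win ι l → c ∈ win ι l →
        ∃ n : ℤ, α b c - α a c + α a b = n) →
      ∃ β : ι × ℤ → ι × ℤ → ℝ, (∀ a b, β (sh M a) (sh M b) = β a b) ∧
        (∀ a b c, K.T a b c → ∃ n : ℤ, β b c - β a c + β a b = n) ∧
        ∃ (r : ι × ℤ → ι × ℤ → ℝ) (q : ι × ℤ → ι × ℤ → ℤ),
          (∀ a b c, K.T a b c → a ∈ win ι l₀ → b ∈ win ι l₀ → c ∈ win ι l₀ →
            r b c - r a c + r a b = 0) ∧
          ∀ a b, a ∈ win ι l₀ → b ∈ win ι l₀ → |b.2 - a.2| ≤ K.w →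
            α a b = β a b + r a b + q a b := by
  classical
  obtain ⟨l, p, hp, H⟩ := abstract_ext (tE ι) (K.bd Set.univ) K.map_bd K.gens K.gens_finite
    K.gens_gen (edges ι l₀) (K.bd (win ι l₀)) (edges_fg l₀) (K.bd_mono (Set.subset_univ _))
    (fun l => K.bd (win ι l)) (fun l l' h => K.bd_mono (win_mono h)) (fun c hc => K.exists_bd_win hc)
  refine ⟨l, p, hp, fun M hM α hα => ?_⟩
  -- the character
  let α' : ι × ℤ → ι × ℤ → UnitAddCircle := fun a b =>
    if |b.2 - a.2| ≤ (K.w : ℤ) then ((α a b : ℝ) : UnitAddCircle) else 0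
  obtain ⟨g, hg1, hg2, r, hr1, hr2⟩ := H M hM (ch α') (by
    apply K.ch_bd
    · intro a b c hT ha hb hc
      obtain ⟨h1, h2, h3⟩ := K.width a b c hT
      obtain ⟨n, hn⟩ := hα a b c hT ha hb hc
      simp only [α', if_pos h1, if_pos h2, if_pos h3]
      rw [← AddCircle.coe_sub, ← AddCircle.coe_add, hn]
      rw [AddCircle.coe_eq_zero_iff]
      exact ⟨n, by simp⟩
    · intro a b hw
      simp only [α']
      rw [if_neg (not_le.mpr hw)])
  -- the real lift of `g`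
  have hsur : Function.Surjective (fun x : ℝ => (x : UnitAddCircle)) :=
    QuotientAddGroup.mk_surjective
  let s : UnitAddCircle → ℝ := Function.surjInv hsur
  have hs : ∀ x, ((s x : ℝ) : UnitAddCircle) = x := Function.surjInv_eq hsur
  let β : ι × ℤ → ι × ℤ → ℝ := fun a b => s (g (ed a b))
  have hint : ∀ x : ℝ, (x : UnitAddCircle) = 0 → ∃ n : ℤ, x = n := by
    intro x hx
    rw [AddCircle.coe_eq_zero_iff] at hx
    obtain ⟨n, hn⟩ := hx
    exact ⟨n, by rw [← hn]; simp⟩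
  let r' : ι × ℤ → ι × ℤ → ℝ := fun a b =>
    if h : a ∈ win ι l₀ ∧ b ∈ win ι l₀ then r ⟨ed a b, ed_mem_edges h.1 h.2⟩ else 0
  have hr' : ∀ a b (ha : a ∈ win ι l₀) (hb : b ∈ win ι l₀),
      r' a b = r ⟨ed a b, ed_mem_edges ha hb⟩ := by
    intro a b ha hb
    simp only [r']
    rw [dif_pos ⟨ha, hb⟩]
  have hq : ∀ a b : ι × ℤ, ∃ n : ℤ, a ∈ win ι l₀ → b ∈ win ι l₀ → |b.2 - a.2| ≤ K.w →
      α a b = β a b + r' a b + n := by
    intro a b
    by_cases h : a ∈ win ι l₀ ∧ b ∈ win ι l₀ ∧ |b.2 - a.2| ≤ K.w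
    · obtain ⟨ha, hb, hw⟩ := h
      obtain ⟨n, hn⟩ := hint (α a b - β a b - r' a b) (by
        rw [AddCircle.coe_sub, AddCircle.coe_sub, hr' a b ha hb, hr2]
        simp only [β, ch_ed, α', if_pos hw]
        rw [hs]
        abel)
      refine ⟨n, fun _ _ _ => ?_⟩
      linarith
    · exact ⟨0, fun ha hb hw => absurd ⟨ha, hb, hw⟩ h⟩
  choose q hq using hq
  refine ⟨β, fun a b => ?_, fun a b c hT => ?_, r', q, fun a b c hT ha hb hc => ?_, hq⟩
  · simp only [β]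
    rw [← tE_iter_ed, hg2]
  · apply hint
    rw [AddCircle.coe_add, AddCircle.coe_sub]
    simp only [β, hs]
    rw [← map_sub, ← map_add]
    exact hg1 _ (K.tri_mem_bd hT trivial trivial trivial)
  · rw [hr' b c hb hc, hr' a c ha hc, hr' a b ha hb, ← map_sub, ← map_add]
    exact hr1 ⟨tri a b c, tri_mem_edges ha hb hc⟩ (K.tri_mem_bd hT ha hb hc)

end PNerve

end Vale.Agent.P267.H82
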