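import Vale.Agent.P267.H82.Krull

/-!
P267, package LATTICE-LIFT: the statement of `Krull.lean` for an abelian group with an
automorphism, and the extension of characters of a finite subgroup to periodic characters.
-/

set_option autoImplicit false

namespace Vale.Agent.P267.H82

open MonoidAlgebra

section Auto

variable {N : Type*} [AddCommGroup N]

/-- the representation of `ℤ` on `N` given by an automorphism -/
noncomputable def autoHom (t : N ≃+ N) : Multiplicative ℤ →* Module.End ℤ N :=
  (Units.coeHom (Module.End ℤ N)).comp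
    (zpowersHom (Module.End ℤ N)ˣ
      (LinearMap.GeneralLinearGroup.ofLinearEquiv (t.toIntLinearEquiv : N ≃ₗ[ℤ] N)))

lemma autoHom_ofAdd_one (t : N ≃+ N) (n : N) : autoHom t (Multiplicative.ofAdd 1) n = t n := by
  simp [autoHom]

lemma autoHom_nat (t : N ≃+ N) (k : ℕ) (n : N) :
    autoHom t (Multiplicative.ofAdd (k : ℤ)) n = (t : N → N)^[k] n := by
  induction k generalizing n with
  | zero => simp
  | succ k ih =>
    have h : Multiplicative.ofAdd ((k + 1 : ℕ) : ℤ)
        = Multiplicative.ofAdd (k : ℤ) * Multiplicative.ofAdd 1 := by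
      rw [← ofAdd_add]
      simp
    rw [h, map_mul, Module.End.mul_apply, ih, autoHom_ofAdd_one, Function.iterate_succ_apply]

/-- Let `N` be generated, as a group with automorphism `t`, by a finite set `S`, and let `I` be a
finite set of torsion elements. Then there is `p ≥ 1` with `I ∩ (t^M - 1) N ⊆ {0}` for all multiples
`M` of `p`. -/
theorem exists_period_auto (t : N ≃+ N) (S : Set N) (hS : S.Finite)
    (hgen : ∀ K : AddSubgroup N, S ⊆ K → (∀ n, n ∈ K → t n ∈ K) → (∀ n, n ∈ K → t.symm n ∈ K) →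
      K = ⊤)
    (I : Set N) (hI : I.Finite) (htor : ∀ x ∈ I, ∃ l : ℕ, 0 < l ∧ l • x = 0) :
    ∃ p, 0 < p ∧ ∀ M, p ∣ M → ∀ x ∈ I, ∀ n : N, (t : N → N)^[M] n - n = x → x = 0 := by
  classical
  let R := MonoidAlgebra ℤ (Multiplicative ℤ)
  let φ : R →+* Module.End ℤ N := (MonoidAlgebra.lift ℤ _ _ (autoHom t)).toRingHom
  let _ : Module R N := Module.compHom N φ
  have hsmul : ∀ (r : R) (n : N), r • n = φ r n := fun r n => rfl
  have hφ : ∀ g : Multiplicative ℤ, φ (MonoidAlgebra.of ℤ _ g) = autoHom t g := by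
    intro g
    exact MonoidAlgebra.lift_of (autoHom t) g
  have hft : @Algebra.FiniteType ℤ R _ _ (Ring.toIntAlgebra R) := by
    have e : (Ring.toIntAlgebra R) = (MonoidAlgebra.algebra : Algebra ℤ R) :=
      Subsingleton.elim _ _
    rw [e]
    infer_instance
  have hfin : Module.Finite R N := by
    refine ⟨⟨hS.toFinset, ?_⟩⟩
    have h1 := hgen (Submodule.span R (hS.toFinset : Set N)).toAddSubgroup ?_ ?_ ?_
    · rw [eq_top_iff]
      intro n _
      have : n ∈ (Submodule.span R (hS.toFinset : Set N)).toAddSubgroup := by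
        rw [h1]; trivial
      exact this
    · intro n hn
      apply Submodule.subset_span
      simpa using hn
    · intro n hn
      have h2 : t n = (MonoidAlgebra.of ℤ _ (Multiplicative.ofAdd (1 : ℤ)) : R) • n := by
        rw [hsmul, hφ, autoHom_ofAdd_one]
      rw [h2]
      exact Submodule.smul_mem _ _ hn
    · intro n hn
      have h2 : t.symm n = (MonoidAlgebra.of ℤ _ (Multiplicative.ofAdd (-1 : ℤ)) : R) • n := by
        rw [hsmul, hφ]
        apply t.injective
        rw [AddEquiv.apply_symm_apply, ← autoHom_ofAdd_one t, ← Module.End.mul_apply, ← map_mul,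
          ← ofAdd_add]
        simp
      rw [h2]
      exact Submodule.smul_mem _ _ hn
  let u : Rˣ := Units.map (MonoidAlgebra.of ℤ (Multiplicative ℤ))
    (toUnits (Multiplicative.ofAdd (1 : ℤ)))
  have hu : (u : R) = MonoidAlgebra.of ℤ _ (Multiplicative.ofAdd 1) := rfl
  obtain ⟨p, hp, h⟩ := exists_period_torsion (R := R) u I hI htor
  refine ⟨p, hp, fun M hM x hx n hn => h M hM x hx n ?_⟩
  rw [sub_smul, one_smul, ← hn, hu, ← map_pow, hsmul, hφ]
  congr 1
  rw [← ofAdd_nsmul, nsmul_eq_mul, mul_one, autoHom_nat]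

/-- Extension of a character along `s : P → N` to a character `g` of `N` with `g ∘ t^M = g`. -/
theorem exists_extension_per {D : Type*} [AddCommGroup D] [DivisibleBy D ℤ] (t : N ≃+ N)
    {P : Type*} [AddCommGroup P] (s : P →+ N) (M : ℕ)
    (hM : ∀ x ∈ s.range, ∀ n : N, (t : N → N)^[M] n - n = x → x = 0)
    (χ : P →+ D) (hχ : ∀ a, s a = 0 → χ a = 0) :
    ∃ g : N →+ D, (∀ a : P, g (s a) = χ a) ∧ ∀ n : N, g ((t : N → N)^[M] n) = g n := by
  -- the homomorphism `P × N → N`, `(a, b) ↦ s a + (t^M b - b)`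
  let θ : N →+ N := (autoHom t (Multiplicative.ofAdd (M : ℤ))).toAddMonoidHom - AddMonoidHom.id N
  have hθ : ∀ n, θ n = (t : N → N)^[M] n - n := by
    intro n
    simp only [θ, AddMonoidHom.sub_apply, AddMonoidHom.id_apply]
    congr 1
    exact autoHom_nat t M n
  let φ : (P × N) →+ N := (s.comp (AddMonoidHom.fst P N)) + (θ.comp (AddMonoidHom.snd P N))
  let ψ : (P × N) →+ D := χ.comp (AddMonoidHom.fst P N)
  have hφ : ∀ x : P × N, φ x = s x.1 + θ x.2 := fun x => rfl
  have hψ : ∀ x : P × N, ψ x = χ x.1 := fun x => rfl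
  have hker : φ.ker ≤ ψ.ker := by
    intro x hx
    rw [AddMonoidHom.mem_ker, hφ] at hx
    rw [AddMonoidHom.mem_ker, hψ]
    have h1 : s x.1 = 0 := by
      refine hM _ ⟨x.1, rfl⟩ (-x.2) ?_
      rw [← hθ, map_neg]
      exact (eq_neg_of_add_eq_zero_left hx).symm
    exact hχ _ h1
  let g₀ : φ.range →+ D :=
    (QuotientAddGroup.lift φ.ker ψ hker).comp (QuotientAddGroup.quotientKerEquivRange φ).symm
  have hg₀ : ∀ x : P × N, g₀ ⟨φ x, ⟨x, rfl⟩⟩ = ψ x := by
    intro x
    simp only [g₀, AddMonoidHom.comp_apply]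
    have h5 : (QuotientAddGroup.quotientKerEquivRange φ).symm ⟨φ x, ⟨x, rfl⟩⟩
        = (QuotientAddGroup.mk x : (P × N) ⧸ φ.ker) := by
      rw [AddEquiv.symm_apply_eq]
      rfl
    have h6 : ((QuotientAddGroup.quotientKerEquivRange φ).symm : φ.range →+ (P × N) ⧸ φ.ker)
        ⟨φ x, ⟨x, rfl⟩⟩ = (QuotientAddGroup.mk x : (P × N) ⧸ φ.ker) := h5
    rw [h6]
    rfl
  have hinj : Function.Injective φ.range.subtype := Subtype.val_injective
  obtain ⟨g, hg⟩ := Module.Baer.extension_property_addMonoidHom (Module.Baer.of_divisible D)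
    φ.range.subtype hinj g₀
  have hg' : ∀ x : P × N, g (φ x) = ψ x := by
    intro x
    rw [← hg₀ x, ← hg]
    rfl
  refine ⟨g, fun n => ?_, fun n => ?_⟩
  · have := hg' (n, 0)
    rw [hφ, hψ] at this
    simpa using this
  · have := hg' (0, n)
    rw [hφ, hψ, hθ] at this
    simp only [map_zero, zero_add, map_sub] at this
    exact sub_eq_zero.mp this

end Auto

end Vale.Agent.P267.H82
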