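import Vale.Agent.P267.H82.Nerve

/-!
P267, package LATTICE-LIFT, step T3: real triviality of a two-cochain on a window is tested by
finitely many integral two-cycles; step T4: Bessel's inequality.
-/

set_option autoImplicit false

namespace Vale.Agent.P267.H82

open Finsupp

variable {ι : Type*}

/-- two-chains -/
abbrev Ch2 (ι : Type*) := ((ι × ℤ) × (ι × ℤ) × (ι × ℤ)) →₀ ℤ

/-- the boundary of a two-chain -/
noncomputable def bdr : Ch2 ι →+ Ch ι :=
  Finsupp.liftAddHom fun p => zmultiplesHom (Ch ι) (tri p.1 p.2.1 p.2.2)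

lemma bdr_single (a b c : ι × ℤ) : bdr (single (a, b, c) 1) = tri a b c := by
  unfold bdr
  rw [Finsupp.liftAddHom_apply_single]
  simp

/-- evaluation of a two-cochain on a two-chain -/
noncomputable def ev {G : Type*} [AddCommGroup G] (z : ι × ℤ → ι × ℤ → ι × ℤ → G) : Ch2 ι →+ G :=
  Finsupp.liftAddHom fun p => zmultiplesHom G (z p.1 p.2.1 p.2.2)

lemma ev_single {G : Type*} [AddCommGroup G] (z : ι × ℤ → ι × ℤ → ι × ℤ → G) (a b c : ι × ℤ) :
    ev z (single (a, b, c) 1) = z a b c := by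
  unfold ev
  rw [Finsupp.liftAddHom_apply_single]
  simp

lemma ev_eq_sum {G : Type*} [AddCommGroup G] (z : ι × ℤ → ι × ℤ → ι × ℤ → G) (y : Ch2 ι) :
    ev z y = y.sum fun p n => n • z p.1 p.2.1 p.2.2 := by
  unfold ev
  rw [Finsupp.liftAddHom_apply]
  rfl

/-- translation of two-chains -/
noncomputable def shC (k : ℤ) (y : Ch2 ι) : Ch2 ι :=
  y.mapDomain fun p => (sh k p.1, sh k p.2.1, sh k p.2.2)

lemma ev_shC {G : Type*} [AddCommGroup G] (z : ι × ℤ → ι × ℤ → ι × ℤ → G) (k : ℤ) (y : Ch2 ι) :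
    ev z (shC k y) = ev (fun a b c => z (sh k a) (sh k b) (sh k c)) y := by
  rw [ev_eq_sum, ev_eq_sum, shC, Finsupp.sum_mapDomain_index]
  · intro p
    exact zero_smul _ _
  · intro p m n
    exact add_smul _ _ _

/-- a homomorphism into a divisible group which kills the kernel of `s` factors through `s` -/
lemma exists_factor {P N D : Type*} [AddCommGroup P] [AddCommGroup N] [AddCommGroup D]
    [DivisibleBy D ℤ] (s : P →+ N) (χ : P →+ D) (h : ∀ a, s a = 0 → χ a = 0) :
    ∃ g : N →+ D, ∀ a, g (s a) = χ a := by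
  obtain ⟨g, hg, -⟩ := exists_extension_per (AddEquiv.refl N) s 0 (fun x _ n hn => by
    rw [Function.iterate_zero, id, sub_self] at hn
    exact hn.symm) χ h
  exact ⟨g, hg⟩

namespace PNerve

variable (K : PNerve ι)

/-- triangles of the window of half-width `l` around level zero -/
def triW (l : ℕ) : Set ((ι × ℤ) × (ι × ℤ) × (ι × ℤ)) :=
  {p | K.T p.1 p.2.1 p.2.2 ∧ p.1 ∈ win ι l ∧ p.2.1 ∈ win ι l ∧ p.2.2 ∈ win ι l}

lemma triW_finite [Finite ι] (l : ℕ) : (K.triW l).Finite := by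
  have h1 : K.triW l ⊆ win ι l ×ˢ (win ι l ×ˢ win ι l) := fun p hp => ⟨hp.2.1, hp.2.2.1, hp.2.2.2⟩
  exact Set.Finite.subset ((win_finite l).prod ((win_finite l).prod (win_finite l))) h1

/-- two-chains of the window -/
noncomputable def ch2W (l : ℕ) : AddSubgroup (Ch2 ι) :=
  AddSubgroup.closure ((fun p => single p (1 : ℤ)) '' K.triW l)

lemma ch2W_fg [Finite ι] (l : ℕ) : (K.ch2W l).FG :=
  ⟨((K.triW_finite l).image _).toFinset, by rw [Set.Finite.coe_toFinset]; rfl⟩

lemma support_of_mem_ch2W {l : ℕ} {y : Ch2 ι} (hy : y ∈ K.ch2W l) :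
    ∀ p, y p ≠ 0 → p ∈ K.triW l := by
  classical
  unfold ch2W at hy
  induction hy using AddSubgroup.closure_induction with
  | mem x hx =>
    obtain ⟨p, hp, rfl⟩ := hx
    intro p' hp'
    change single p (1 : ℤ) p' ≠ 0 at hp'
    rw [Finsupp.single_apply] at hp'
    split_ifs at hp' with h
    · rwa [← h]
    · exact absurd rfl hp'
  | zero => intro p hp; exact absurd rfl hp
  | add x y _ _ hx hy =>
    intro p hp
    by_contra hne
    apply hp
    rw [Finsupp.add_apply, not_not.mp (fun h => hne (hx p h)), not_not.mp (fun h => hne (hy p h)),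
      add_zero]
  | neg x _ hx =>
    intro p hp
    apply hx p
    intro h
    apply hp
    rw [Finsupp.neg_apply, h, neg_zero]

/-- **Step T3.** Real triviality on a window is tested by finitely many integral cycles. -/
theorem exists_cycles [Finite ι] (l : ℕ) :
    ∃ Y : Finset (Ch2 ι), (∀ y ∈ Y, bdr y = 0 ∧ ∀ p, y p ≠ 0 → p ∈ K.triW l) ∧
      ∀ z : ι × ℤ → ι × ℤ → ι × ℤ → ℝ, (∀ y ∈ Y, ev z y = 0) →
        ∃ α : ι × ℤ → ι × ℤ → ℝ, ∀ a b c, K.T a b c → a ∈ win ι l → b ∈ win ι l → c ∈ win ι l →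
          z a b c = α b c - α a c + α a b := by
  classical
  have hfg : (K.ch2W l ⊓ (bdr (ι := ι)).ker).FG := addSubgroup_fg_of_le (K.ch2W_fg l) inf_le_left
  obtain ⟨Y, hY⟩ := hfg
  refine ⟨Y, fun y hy => ?_, fun z hz => ?_⟩
  · have h1 : y ∈ K.ch2W l ⊓ (bdr (ι := ι)).ker := by
      rw [← hY]
      exact AddSubgroup.subset_closure hy
    exact ⟨h1.2, K.support_of_mem_ch2W h1.1⟩
  · have h2 : K.ch2W l ⊓ (bdr (ι := ι)).ker ≤ (ev z).ker := by
      rw [← hY, AddSubgroup.closure_le]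
      intro y hy
      exact hz y hy
    obtain ⟨g, hg⟩ := exists_factor (bdr.comp (K.ch2W l).subtype) ((ev z).comp (K.ch2W l).subtype)
      (fun y hy => h2 ⟨y.2, hy⟩)
    refine ⟨fun a b => g (ed a b), fun a b c hT ha hb hc => ?_⟩
    have hmem : single (a, b, c) (1 : ℤ) ∈ K.ch2W l :=
      AddSubgroup.subset_closure ⟨(a, b, c), ⟨hT, ha, hb, hc⟩, rfl⟩
    have h3 := hg ⟨_, hmem⟩
    simp only [AddMonoidHom.comp_apply, AddSubgroup.coe_subtype, bdr_single, ev_single] at h3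
    rw [← h3, tri, map_add, map_sub]

/-- Step T3, window around level `j`. -/
theorem exists_cycles' [Finite ι] (l : ℕ) :
    ∃ Y : Finset (Ch2 ι), (∀ y ∈ Y, bdr y = 0 ∧ ∀ p, y p ≠ 0 → p ∈ K.triW l) ∧
      ∀ (z : ι × ℤ → ι × ℤ → ι × ℤ → ℝ) (j : ℤ), (∀ y ∈ Y, ev z (shC j y) = 0) →
        ∃ α : ι × ℤ → ι × ℤ → ℝ, ∀ a b c, K.T a b c → |a.2 - j| ≤ l → |b.2 - j| ≤ l →
          |c.2 - j| ≤ l → z a b c = α b c - α a c + α a b := by
  obtain ⟨Y, hY1, hY2⟩ := K.exists_cycles l
  refine ⟨Y, hY1, fun z j hz => ?_⟩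
  obtain ⟨α, hα⟩ := hY2 (fun a b c => z (sh j a) (sh j b) (sh j c)) (fun y hy => by
    rw [← ev_shC]
    exact hz y hy)
  refine ⟨fun a b => α (sh (-j) a) (sh (-j) b), fun a b c hT ha hb hc => ?_⟩
  have hjj : ∀ a : ι × ℤ, sh j (sh (-j) a) = a := by
    intro a
    rw [sh_sh]
    simp
  have h := hα (sh (-j) a) (sh (-j) b) (sh (-j) c) ((K.shift (-j) a b c).mpr hT) ha hb hc
  simp only [hjj] at h
  exact h

end PNerve

section Bessel

open Finset

variable {V : Type*} [AddCommGroup V] [Module ℝ V] (B : V →ₗ[ℝ] V →ₗ[ℝ] ℝ)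

/-- Cauchy-Schwarz for a positive semidefinite form -/
lemma cs_semidef (hsymm : ∀ x y, B x y = B y x) (hpos : ∀ x, 0 ≤ B x x) (x y : V) :
    B x y ^ 2 ≤ B x x * B y y := by
  have h : ∀ t : ℝ, 0 ≤ B x x + 2 * t * B x y + t ^ 2 * B y y := by
    intro t
    have h1 := hpos (x + t • y)
    simp only [map_add, map_smul, LinearMap.add_apply, LinearMap.smul_apply, smul_eq_mul] at h1
    rw [hsymm y x] at h1
    nlinarith
  by_cases hy : B y y = 0
  · have h0 : B x y = 0 := by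
      by_contra hne
      have h1 := h (-(B x x + 1) / (2 * B x y))
      rw [hy, mul_zero, add_zero] at h1
      have h2 : 2 * (-(B x x + 1) / (2 * B x y)) * B x y = -(B x x + 1) := by
        field_simp
      rw [h2] at h1
      linarith
    rw [h0, hy]
    simp
  · have hy' : 0 < B y y := lt_of_le_of_ne (hpos y) (Ne.symm hy)
    have h1 := h (-(B x y) / B y y)
    have h2 : B x x + 2 * (-(B x y) / B y y) * B x y + (-(B x y) / B y y) ^ 2 * B y y
        = B x x - B x y ^ 2 / B y y := by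
      field_simp
      ring
    rw [h2, sub_nonneg, div_le_iff₀ hy'] at h1
    exact h1

/-- **Step T4.** Bessel's inequality for vectors with bounded Gram row sums. -/
theorem bessel_gram (hsymm : ∀ x y, B x y = B y x) (hpos : ∀ x, 0 ≤ B x x) (z : V)
    {σ : Type*} (s : Finset σ) (v : σ → V) (C : ℝ) (hC0 : 0 ≤ C)
    (hC : ∀ j ∈ s, ∑ k ∈ s, |B (v j) (v k)| ≤ C) :
    ∑ j ∈ s, B z (v j) ^ 2 ≤ C * B z z := by
  classical
  set S := ∑ j ∈ s, B z (v j) ^ 2 with hS
  have hS0 : 0 ≤ S := Finset.sum_nonneg fun j _ => sq_nonneg _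
  let u : V := ∑ j ∈ s, B z (v j) • v j
  have h1 : B z u = S := by
    simp only [u, map_sum, map_smul, smul_eq_mul]
    exact Finset.sum_congr rfl fun j _ => by ring
  have h2 : B u u ≤ C * S := by
    have e1 : B u u = ∑ j ∈ s, ∑ k ∈ s, B z (v j) * B z (v k) * B (v j) (v k) := by
      simp only [u, map_sum, map_smul, LinearMap.sum_apply, LinearMap.smul_apply, smul_eq_mul,
        Finset.mul_sum]
      rw [Finset.sum_comm]
      refine Finset.sum_congr rfl fun j _ => Finset.sum_congr rfl fun k _ => ?_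
      ring
    have e2 : ∀ j ∈ s, ∀ k ∈ s, B z (v j) * B z (v k) * B (v j) (v k) ≤
        (1 / 2) * (B z (v j) ^ 2 * |B (v j) (v k)|) + (1 / 2) * (B z (v k) ^ 2 * |B (v k) (v j)|) := by
      intro j _ k _
      rw [hsymm (v k) (v j)]
      have h3 : B z (v j) * B z (v k) * B (v j) (v k) ≤
          |B z (v j) * B z (v k)| * |B (v j) (v k)| := by
        rw [← abs_mul]
        exact le_abs_self _
      have h4 : |B z (v j) * B z (v k)| ≤ (B z (v j) ^ 2 + B z (v k) ^ 2) / 2 := by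
        rw [abs_mul]
        nlinarith [sq_nonneg (|B z (v j)| - |B z (v k)|), sq_abs (B z (v j)), sq_abs (B z (v k))]
      have h5 := mul_le_mul_of_nonneg_right h4 (abs_nonneg (B (v j) (v k)))
      linarith
    calc B u u = ∑ j ∈ s, ∑ k ∈ s, B z (v j) * B z (v k) * B (v j) (v k) := e1
      _ ≤ ∑ j ∈ s, ∑ k ∈ s, ((1 / 2) * (B z (v j) ^ 2 * |B (v j) (v k)|) +
            (1 / 2) * (B z (v k) ^ 2 * |B (v k) (v j)|)) :=
          Finset.sum_le_sum fun j hj => Finset.sum_le_sum fun k hk => e2 j hj k hk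
      _ = ∑ j ∈ s, B z (v j) ^ 2 * ∑ k ∈ s, |B (v j) (v k)| := by
          simp only [Finset.sum_add_distrib]
          rw [Finset.sum_comm (f := fun j k => (1 / 2 : ℝ) * (B z (v k) ^ 2 * |B (v k) (v j)|))]
          rw [← Finset.sum_add_distrib]
          refine Finset.sum_congr rfl fun j _ => ?_
          rw [← Finset.sum_add_distrib, Finset.mul_sum]
          refine Finset.sum_congr rfl fun k _ => ?_
          ring
      _ ≤ ∑ j ∈ s, B z (v j) ^ 2 * C :=
          Finset.sum_le_sum fun j hj => mul_le_mul_of_nonneg_left (hC j hj) (sq_nonneg _)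
      _ = C * S := by rw [← Finset.sum_mul, mul_comm]
  have h3 := cs_semidef B hsymm hpos z u
  rw [h1] at h3
  rcases hS0.eq_or_lt with h4 | h4
  · rw [← h4]
    exact mul_nonneg hC0 (hpos z)
  · have h5 : S ^ 2 ≤ B z z * (C * S) := h3.trans (mul_le_mul_of_nonneg_left h2 (hpos z))
    have h6 : S * S ≤ (C * B z z) * S := by nlinarith
    exact le_of_mul_le_mul_right h6 h4

/-- If the pairings are integers and there are more vectors than the Bessel bound allows, then some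
index is orthogonal to everything. -/
theorem exists_index (hsymm : ∀ x y, B x y = B y x) (hpos : ∀ x, 0 ≤ B x x) (z : V)
    {σ τ : Type*} (s : Finset σ) (Y : Finset τ) (v : τ → σ → V) (C : τ → ℝ)
    (hC0 : ∀ y ∈ Y, 0 ≤ C y) (hC : ∀ y ∈ Y, ∀ j ∈ s, ∑ k ∈ s, |B (v y j) (v y k)| ≤ C y)
    (hint : ∀ y ∈ Y, ∀ j ∈ s, ∃ n : ℤ, B z (v y j) = n)
    (hcard : (∑ y ∈ Y, C y) * B z z < s.card) :
    ∃ j ∈ s, ∀ y ∈ Y, B z (v y j) = 0 := by
  classical
  by_contra hne
  push Not at hne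
  have h1 : (s.card : ℝ) ≤ ∑ j ∈ s, ∑ y ∈ Y, B z (v y j) ^ 2 := by
    rw [Finset.card_eq_sum_ones, Nat.cast_sum]
    refine Finset.sum_le_sum fun j hj => ?_
    obtain ⟨y, hy, hyj⟩ := hne j hj
    obtain ⟨n, hn⟩ := hint y hy j hj
    have h2 : (1 : ℝ) ≤ B z (v y j) ^ 2 := by
      rw [hn] at hyj ⊢
      have hn0 : n ≠ 0 := by
        intro h
        apply hyj
        rw [h]
        simp
      have h3 : (1 : ℤ) ≤ n ^ 2 := by
        have : 0 < n ^ 2 := by positivity
        omega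
      exact_mod_cast h3
    refine le_trans ?_ (Finset.single_le_sum (f := fun y => B z (v y j) ^ 2)
      (fun y _ => sq_nonneg _) hy)
    simpa using h2
  have h2 : ∑ j ∈ s, ∑ y ∈ Y, B z (v y j) ^ 2 ≤ (∑ y ∈ Y, C y) * B z z := by
    rw [Finset.sum_comm, Finset.sum_mul]
    exact Finset.sum_le_sum fun y hy => bessel_gram B hsymm hpos z s (v y) (C y) (hC0 y hy)
      (hC y hy)
  linarith

end Bessel

end Vale.Agent.P267.H82
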